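import Crest.Statements.S0110
import Crest.Agent.R82.SharpAsm

set_option autoImplicit false
open MeasureTheory
open scoped ENNReal NNReal
open Crest.AnalysisR.OT
open Crest Crest.AnalysisR Crest.AnalysisR.OT

namespace Crest.Agent.S0110

/-- The exponent one third is optimal, even on the cube with three-atom targets: for d ≥ 2, ρ the uniform probability measure on the cube of points of ℝᵈ with all coordinates in [-1, 1], every α > 1/3 and every C ≥ 0, there are three-atomic probability measures μ, ν on that cube, each admitting a quadratic optimal transport map from ρ, such that for all such optimal maps Tμ, Tν some coupling π of μ, ν has C · (∫ ‖y - z‖² dπ)^α < ∫ ‖Tμ - Tν‖² dρ. Hence ‖Tμ - Tν‖_{L²(ρ)} > √C · W₂(μ, ν)^α. -/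
theorem result
    (d : ℕ) (hd : 2 ≤ d) (α : ℝ) (hα : 1 / 3 < α) (C : ℝ≥0) :
    ∃ μ ν : Measure (EuclideanSpace ℝ (Fin d)),
      IsProbabilityOn {x : EuclideanSpace ℝ (Fin d) | ∀ i, |x i| ≤ 1} μ ∧
      IsProbabilityOn {x : EuclideanSpace ℝ (Fin d) | ∀ i, |x i| ≤ 1} ν ∧
      IsThreeAtomic μ ∧ IsThreeAtomic ν ∧
      (∃ T, IsOptimalMap (uniformProbOn {x : EuclideanSpace ℝ (Fin d) | ∀ i, |x i| ≤ 1}) μ T) ∧
      (∃ T, IsOptimalMap (uniformProbOn {x : EuclideanSpace ℝ (Fin d) | ∀ i, |x i| ≤ 1}) ν T) ∧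
      ∀ Tμ Tν : EuclideanSpace ℝ (Fin d) → EuclideanSpace ℝ (Fin d),
        IsOptimalMap (uniformProbOn {x : EuclideanSpace ℝ (Fin d) | ∀ i, |x i| ≤ 1}) μ Tμ →
        IsOptimalMap (uniformProbOn {x : EuclideanSpace ℝ (Fin d) | ∀ i, |x i| ≤ 1}) ν Tν →
        ∃ π : Measure (EuclideanSpace ℝ (Fin d) × EuclideanSpace ℝ (Fin d)), IsPairCoupling μ ν π ∧
          (C : ℝ≥0∞) * quadCost π ^ α < ∫⁻ x, ‖Tμ x - Tν x‖ₑ ^ 2 ∂(uniformProbOn {x : EuclideanSpace ℝ (Fin d) | ∀ i, |x i| ≤ 1}) := by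
  have h0 : 0 < d := by omega
  have h1 : 1 < d := by omega
  obtain ⟨w, hw0, hw1, hw⟩ := Crest.Agent.R82.Sharp.exists_w α hα (C : ℝ) C.2
  obtain ⟨μ, ν, hμ, hν, aμ, aν, oμ, oν, H⟩ :=
    Crest.Agent.R82.Sharp.sharp_example (d := d) ⟨0, h0⟩ ⟨1, h1⟩ (by simp [Fin.ext_iff]) w hw0 hw1
  refine ⟨μ, ν, hμ, hν, aμ, aν, oμ, oν, ?_⟩
  intro Tμ Tν hTμ hTν
  obtain ⟨π, hπ, hcost, hlow⟩ := H Tμ Tν hTμ hTν
  refine ⟨π, hπ, lt_of_lt_of_le ?_ hlow⟩
  have hα0 : 0 < α := by linarith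
  calc (C : ℝ≥0∞) * quadCost π ^ α ≤ (C : ℝ≥0∞) * (ENNReal.ofReal (2 * w ^ 3)) ^ α := by
        gcongr
    _ = ENNReal.ofReal ((C : ℝ) * (2 * w ^ 3) ^ α) := by
        rw [ENNReal.ofReal_rpow_of_pos (by positivity), ENNReal.ofReal_mul (NNReal.coe_nonneg C),
          ENNReal.ofReal_coe_nnreal]
    _ < ENNReal.ofReal (w / 64) := by
        exact (ENNReal.ofReal_lt_ofReal_iff (by positivity)).mpr hw

end Crest.Agent.S0110
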