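import Crest.Statements.S0166
import Crest.Agent.R125.Space166
import Crest.Agent.R125.Diamond

set_option autoImplicit false
open Crest Crest.AnalysisR

namespace Crest.Agent.S0166

/-- There is a real Banach space (RealBanach record) that is separable, infinite-dimensional and reflexive, whose given norm has at every t > 0 averaged midpoint asymptotic modulus at least √(1 + t²/12) - 1 and at least (√(1 + t²/4) - 1)/2 and maximum-based midpoint modulus at least √(1 + t²/4) - 1, on which no equivalent norm is asymptotically uniformly convex, and in which for every k every map of the depth-k countably branching diamond graph of distortion at most D has 1 + k/4 ≤ D². -/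
theorem result :
    ∃ E : Crest.AnalysisR.RealBanach, E.IsSeparableInfiniteDim ∧ E.IsReflexive ∧
      (∀ t : ℝ, 0 < t → E.MidpointModulusGE E.norm t (Real.sqrt (1 + t ^ 2 / 12) - 1) ∧
        E.MidpointModulusGE E.norm t ((Real.sqrt (1 + t ^ 2 / 4) - 1) / 2) ∧
        E.MaxMidpointModulusGE E.norm t (Real.sqrt (1 + t ^ 2 / 4) - 1)) ∧
      (∀ N : E.X → ℝ, E.IsEquivNorm N → ¬ E.IsAUC N) ∧
      ∀ (k : ℕ) (f : Crest.AnalysisR.DiamondVertex k → E.X) (D : ℝ),
        E.HasDistortionLE k f D → 1 + (k : ℝ) / 4 ≤ D ^ 2 := by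
  have hno : ∀ N : Crest.Agent.R125.E166 → ℝ,
      Crest.Agent.R125.EquivNorm N → ¬ Crest.Agent.R125.AUC N :=
    fun N hN => Crest.Agent.R125.E166_no_AUC N hN
  have h1 : TopologicalSpace.SeparableSpace Crest.Agent.R125.E166 ∧
      ¬ FiniteDimensional ℝ Crest.Agent.R125.E166 :=
    ⟨Crest.Agent.R125.E166_separable, Crest.Agent.R125.not_finiteDimensional_of_no_AUC hno⟩
  have hmid : ∀ t : ℝ, Crest.Agent.R125.MidGE (fun x : Crest.Agent.R125.E166 => ‖x‖) t
      (Real.sqrt (1 + t ^ 2 / 4) - 1) := fun t => Crest.Agent.R125.E166_qmid.midGE t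
  have hsq : ∀ t : ℝ, 1 ≤ Real.sqrt (1 + t ^ 2 / 4) := by
    intro t
    rw [show (1 : ℝ) = Real.sqrt 1 from Real.sqrt_one.symm]
    apply Real.sqrt_le_sqrt
    rw [Real.sqrt_one]
    nlinarith [sq_nonneg t]
  have h2 : ∀ t : ℝ, 0 < t →
      Crest.Agent.R125.MidGE (fun x : Crest.Agent.R125.E166 => ‖x‖) t
        (Real.sqrt (1 + t ^ 2 / 12) - 1) ∧
      Crest.Agent.R125.MidGE (fun x : Crest.Agent.R125.E166 => ‖x‖) t
        ((Real.sqrt (1 + t ^ 2 / 4) - 1) / 2) ∧
      Crest.Agent.R125.MaxGE (fun x : Crest.Agent.R125.E166 => ‖x‖) t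
        (Real.sqrt (1 + t ^ 2 / 4) - 1) := by
    intro t _
    refine ⟨(hmid t).mono ?_, (hmid t).mono ?_, (hmid t).maxGE⟩
    · have : Real.sqrt (1 + t ^ 2 / 12) ≤ Real.sqrt (1 + t ^ 2 / 4) := by
        apply Real.sqrt_le_sqrt
        nlinarith [sq_nonneg t]
      linarith
    · have := hsq t
      linarith
  have h3 : ∀ (k : ℕ) (f : Crest.AnalysisR.DiamondVertex k → Crest.Agent.R125.E166) (D : ℝ),
      (∃ s : ℝ, 0 < s ∧ ∀ u v : Crest.AnalysisR.DiamondVertex k,
        s * (Crest.AnalysisR.diamondDist k u v : ℝ) ≤ ‖f u - f v‖ ∧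
          ‖f u - f v‖ ≤ D * s * (Crest.AnalysisR.diamondDist k u v : ℝ)) →
      1 + (k : ℝ) / 4 ≤ D ^ 2 :=
    fun k f D h => Crest.Agent.R125.diamond_distortion (fun t _ => (hmid t).maxGE) k f D h
  exact ⟨Crest.Agent.R125.mkB Crest.Agent.R125.E166, h1, Crest.Agent.R125.E166_refl, h2, hno, h3⟩

end Crest.Agent.S0166
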