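import Crest.Statements.S0167
import Crest.Agent.R125.Daugavet
import Crest.Agent.R125.L1Mid

set_option autoImplicit false
open Crest Crest.AnalysisR

namespace Crest.Agent.S0167

/-- Let E be an infinite-dimensional closed subspace of the real L¹ of a probability space whose closed unit ball is totally bounded for convergence in measure and whose norm has the Daugavet property. Then at every unit x ∈ E and every t > 0 the averaged midpoint quantity sup_F inf_y ((‖x+ty‖+‖x-ty‖)/2 - 1) equals max(t/2, t-1) and the one-sided one sup_F inf_y (‖x+ty‖ - 1) equals max(0, t-2), as matching lower and upper bounds, and E admits no equivalent asymptotically uniformly convex norm. -/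
theorem result (Ω : Type) [MeasurableSpace Ω] (P : MeasureTheory.Measure Ω) [MeasureTheory.IsProbabilityMeasure P]
    (E : Submodule ℝ (MeasureTheory.Lp ℝ 1 P)) (hcl : IsClosed (E : Set (MeasureTheory.Lp ℝ 1 P)))
    (hinf : ¬ FiniteDimensional ℝ E)
    (htb : Crest.AnalysisR.L1Subspace.UnitBallTotallyBoundedInMeasure P E)
    (hD : Crest.AnalysisR.L1Subspace.HasDaugavetProperty E) :
    (∀ t : ℝ, 0 < t →
      (Crest.AnalysisR.L1Subspace.toRealBanach P E hcl).MidpointModulusGE
          (Crest.AnalysisR.L1Subspace.toRealBanach P E hcl).norm t (max (t / 2) (t - 1)) ∧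
        (Crest.AnalysisR.L1Subspace.toRealBanach P E hcl).MidpointModulusLE
          (Crest.AnalysisR.L1Subspace.toRealBanach P E hcl).norm t (max (t / 2) (t - 1)) ∧
        (Crest.AnalysisR.L1Subspace.toRealBanach P E hcl).OneSidedModulusGE
          (Crest.AnalysisR.L1Subspace.toRealBanach P E hcl).norm t (max 0 (t - 2)) ∧
        (Crest.AnalysisR.L1Subspace.toRealBanach P E hcl).OneSidedModulusLE
          (Crest.AnalysisR.L1Subspace.toRealBanach P E hcl).norm t (max 0 (t - 2))) ∧
      ∀ N : E → ℝ, (Crest.AnalysisR.L1Subspace.toRealBanach P E hcl).IsEquivNorm N →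
        ¬ (Crest.AnalysisR.L1Subspace.toRealBanach P E hcl).IsAUC N := by
  have hne : ∃ x : E, x ≠ 0 := by
    by_contra hcon
    push Not at hcon
    apply hinf
    have : Subsingleton E := ⟨fun a b => by rw [hcon a, hcon b]⟩
    infer_instance
  have hno : ∀ N : E → ℝ, Crest.Agent.R125.EquivNorm N → ¬ Crest.Agent.R125.AUC N :=
    fun N hN => Crest.Agent.R125.daugavet_no_AUC hD hne N hN
  have h1 : ∀ t : ℝ, 0 < t →
      Crest.Agent.R125.MidGE (fun x : E => ‖x‖) t (max (t / 2) (t - 1)) ∧
      Crest.Agent.R125.MidLE (fun x : E => ‖x‖) t (max (t / 2) (t - 1)) ∧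
      Crest.Agent.R125.OneGE (fun x : E => ‖x‖) t (max 0 (t - 2)) ∧
      Crest.Agent.R125.OneLE (fun x : E => ‖x‖) t (max 0 (t - 2)) :=
    fun t ht => ⟨Crest.Agent.R125.l1_midGE Ω P E htb t ht, Crest.Agent.R125.daugavet_midLE hD t ht,
      Crest.Agent.R125.oneGE_trivial t ht, Crest.Agent.R125.daugavet_oneLE hD t ht⟩
  exact ⟨h1, hno⟩

end Crest.Agent.S0167
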