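import Crest.Statements.S0168
import Crest.Agent.R125.ModelTree
import Crest.Agent.R125.ModelMid

set_option autoImplicit false
open Crest Crest.AnalysisR

namespace Crest.Agent.S0168

/-- For each of the four bounded-potential coordinate models on the countably branching tree (rootless sibling, rooted sibling, antichain, global), the generated space, namely the closure of the span of the coordinate vectors in the supremum norm over the model's tests, is separable and infinite-dimensional, its norm has at every unit centre and every 0 < t < 1 averaged midpoint asymptotic quantity at least √(1 + t²/4) - 1, and no equivalent norm on it is asymptotically uniformly convex. -/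
theorem result
    (m : Crest.AnalysisR.TreePotential.PotentialModel) :
    (Crest.AnalysisR.TreePotential.modelBanach m).IsSeparableInfiniteDim ∧
      (∀ t : ℝ, 0 < t → t < 1 →
        (Crest.AnalysisR.TreePotential.modelBanach m).MidpointModulusGE
          (Crest.AnalysisR.TreePotential.modelBanach m).norm t (Real.sqrt (1 + t ^ 2 / 4) - 1)) ∧
      ∀ N : (Crest.AnalysisR.TreePotential.modelBanach m).X → ℝ,
        (Crest.AnalysisR.TreePotential.modelBanach m).IsEquivNorm N →
          ¬ (Crest.AnalysisR.TreePotential.modelBanach m).IsAUC N := by
  have hno : ∀ N : Crest.AnalysisR.TreePotential.modelSpace m → ℝ,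
      Crest.Agent.R125.EquivNorm N → ¬ Crest.Agent.R125.AUC N :=
    fun N hN => Crest.Agent.R125.model_no_AUC m N hN
  have h1 : TopologicalSpace.SeparableSpace (Crest.AnalysisR.TreePotential.modelSpace m) ∧
      ¬ FiniteDimensional ℝ (Crest.AnalysisR.TreePotential.modelSpace m) :=
    ⟨Crest.Agent.R125.model_separable m, Crest.Agent.R125.not_finiteDimensional_of_no_AUC hno⟩
  have h2 : ∀ t : ℝ, 0 < t → t < 1 → Crest.Agent.R125.MidGE
      (fun x : Crest.AnalysisR.TreePotential.modelSpace m => ‖x‖) t
      (Real.sqrt (1 + t ^ 2 / 4) - 1) :=
    fun t _ _ => (Crest.Agent.R125.qmid_model m).midGE t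
  exact ⟨h1, h2, hno⟩

end Crest.Agent.S0168
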