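import Crest.Statements.S0175
import Crest.Agent.R130.DesignMain
import Crest.Agent.R130.SetupExists
import Crest.Agent.R130.SetupDensity
import Crest.Agent.R130.SetupApprox

set_option autoImplicit false
open MeasureTheory
open scoped ENNReal ContDiff
open Crest.AnalysisR.OT
open Crest Crest.AnalysisR Crest.AnalysisR.OT

namespace Crest.Agent.S0175

/-- For every d ≥ 2 and s > 0 there is a smooth, compactly supported, nonnegative ρ on ℝᵈ with integral 1 and smooth square root such that, for μ = ρ dx and the cost summing ‖xᵢ - xⱼ‖^(-s) over the three pairs of a triple: some coupling with all three marginals μ has finite cost, minimal among all such couplings; every pair of Borel maps T₂, T₃ pushing μ to itself gives the plan x ↦ (x, T₂ x, T₃ x) strictly larger cost; and such pairs have costs arbitrarily close to that minimum. -/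
theorem result
    (d : ℕ) (hd : 2 ≤ d) (s : ℝ) (hs : 0 < s) :
    ∃ ρ : EuclideanSpace ℝ (Fin d) → ℝ, (∀ x, 0 ≤ ρ x) ∧ ContDiff ℝ ∞ ρ ∧ HasCompactSupport ρ ∧
      ContDiff ℝ ∞ (fun x => Real.sqrt (ρ x)) ∧ ∫ x, ρ x = 1 ∧
      ∃ π₀ : Measure (EuclideanSpace ℝ (Fin d) × EuclideanSpace ℝ (Fin d) × EuclideanSpace ℝ (Fin d)),
        IsCoupling₃ (measOfDensity ρ) π₀ ∧ ∫⁻ p, tripleCost s p ∂π₀ < ⊤ ∧
        (∀ π : Measure (EuclideanSpace ℝ (Fin d) × EuclideanSpace ℝ (Fin d) × EuclideanSpace ℝ (Fin d)), IsCoupling₃ (measOfDensity ρ) π →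
          ∫⁻ p, tripleCost s p ∂π₀ ≤ ∫⁻ p, tripleCost s p ∂π) ∧
        (∀ T₂ T₃ : EuclideanSpace ℝ (Fin d) → EuclideanSpace ℝ (Fin d), Measurable T₂ → Measurable T₃ →
          (measOfDensity ρ).map T₂ = measOfDensity ρ → (measOfDensity ρ).map T₃ = measOfDensity ρ →
          ∫⁻ p, tripleCost s p ∂π₀ < ∫⁻ x, tripleCost s (x, T₂ x, T₃ x) ∂(measOfDensity ρ)) ∧
        (∀ ε : ℝ≥0∞, 0 < ε → ∃ T₂ T₃ : EuclideanSpace ℝ (Fin d) → EuclideanSpace ℝ (Fin d), Measurable T₂ ∧ Measurable T₃ ∧
          (measOfDensity ρ).map T₂ = measOfDensity ρ ∧ (measOfDensity ρ).map T₃ = measOfDensity ρ ∧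
          ∫⁻ x, tripleCost s (x, T₂ x, T₃ x) ∂(measOfDensity ρ) < ∫⁻ p, tripleCost s p ∂π₀ + ε) := by
  obtain ⟨n, rfl⟩ : ∃ n, d = n + 2 := ⟨d - 2, by omega⟩
  obtain ⟨T⟩ := Crest.Agent.R130.exists_setup n s hs
  obtain ⟨g, hg, hg0, hgc, hμ⟩ := T.exists_g
  have hmain := T.toDesign.main T.approx
  rw [hμ] at hmain
  have hsq : (fun x => Real.sqrt (g x ^ 2)) = g := by
    funext x
    exact Real.sqrt_sq (hg0 x)
  refine ⟨fun x => g x ^ 2, fun x => by positivity, hg.pow 2, ?_, ?_, ?_, hmain⟩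
  · -- compact support
    have : (fun x => g x ^ 2) = fun x => g x * g x := by
      funext x; ring
    rw [this]
    exact hgc.mul_left
  · rw [hsq]; exact hg
  · -- total mass
    have h1 : T.toDesign.μ Set.univ = 1 := by
      rw [T.toDesign.μ_univ]
      show 6 * T.ν Set.univ = 1
      rw [T.ν_univ]
      rw [one_div]
      exact ENNReal.mul_inv_cancel (by norm_num) (by norm_num)
    rw [hμ] at h1
    have h2 : ∫⁻ x, ENNReal.ofReal (g x ^ 2) = 1 := by
      have := h1
      unfold measOfDensity at this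
      rwa [withDensity_apply _ MeasurableSet.univ, Measure.restrict_univ] at this
    rw [integral_eq_lintegral_of_nonneg_ae (Filter.Eventually.of_forall fun x => by positivity)
      ((hg.pow 2).continuous.aestronglyMeasurable), h2]
    simp

end Crest.Agent.S0175
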