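import Crest.Statements.S0324
import Crest.Agent.R211.Perp

set_option autoImplicit false
open MeasureTheory
open scoped ENNReal
open Crest Crest.GeometryTopology Crest.GeometryTopology.Convex

namespace Crest.Agent.S0324

/-- The regular tetrahedron `K` with vertices `(±1, 0, 0)`, `(0, ±1, √2)` is covered by finitely many cylinders `Bᵢ + ℝ uᵢ`, each with unit direction `uᵢ` and base `Bᵢ` a triangle (convex hull of three points) in the plane `uᵢ^⊥`, whose total base area `∑ᵢ area(Bᵢ)` is smaller, by a positive margin, than half the area of the orthogonal projection of `K` onto `v^⊥` for every unit vector `v`; areas are 2-dimensional Hausdorff measure. -/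
theorem result :
    ∃ (m : ℕ) (u p q r : Fin m → EuclideanSpace ℝ (Fin 3)),
      (∀ i, ‖u i‖ = 1) ∧
      (∀ i, inner ℝ (p i) (u i) = 0 ∧ inner ℝ (q i) (u i) = 0 ∧ inner ℝ (r i) (u i) = 0) ∧
      convexHull ℝ {!₂[1, 0, 0], !₂[-1, 0, 0], !₂[0, 1, Real.sqrt 2], !₂[0, -1, Real.sqrt 2]} ⊆
        ⋃ i, {x : EuclideanSpace ℝ (Fin 3) | ∃ b ∈ convexHull ℝ {p i, q i, r i}, ∃ t : ℝ, x = b + t • u i} ∧
      ∃ δ : ℝ, 0 < δ ∧ ∀ v : EuclideanSpace ℝ (Fin 3), ‖v‖ = 1 →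
        ∑ i, (μH[(2 : ℝ)] (convexHull ℝ {p i, q i, r i})).toReal + δ ≤
          (μH[(2 : ℝ)] ((fun y => y - inner ℝ y v • v) '' convexHull ℝ {!₂[1, 0, 0], !₂[-1, 0, 0], !₂[0, 1, Real.sqrt 2], !₂[0, -1, Real.sqrt 2]})).toReal / 2 := by
  obtain ⟨m, u, p, q, r, -, hu, hperp, hcov, hsum⟩ := Crest.Agent.R211.exists_perp_cover_K0
  obtain ⟨κ, hκ, hfac⟩ := Crest.Agent.R211.exists_muH_factor
  refine ⟨m, u, p, q, r, hu, hperp, hcov, κ * Real.sqrt 2 / 10 ^ 9, by positivity, ?_⟩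
  intro v hv
  have h1 : Real.sqrt 2 ≤ (μHE[2] (Crest.Agent.R211.proj v '' Crest.Agent.R211.K0)).toReal :=
    (ENNReal.ofReal_le_iff_le_toReal (Crest.Agent.R211.area_proj_K0_lt_top v hv).ne).mp
      (Crest.Agent.R211.sqrt_two_le_area_proj_K0 v hv)
  have h2 : (μH[(2 : ℝ)] ((fun y => y - inner ℝ y v • v) '' convexHull ℝ {!₂[1, 0, 0], !₂[-1, 0, 0], !₂[0, 1, Real.sqrt 2], !₂[0, -1, Real.sqrt 2]})).toReal
      = κ * (μHE[2] (Crest.Agent.R211.proj v '' Crest.Agent.R211.K0)).toReal := by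
    rw [hfac, ENNReal.toReal_mul, ENNReal.toReal_ofReal hκ.le]
    rfl
  have h3 : ∑ i, (μH[(2 : ℝ)] (convexHull ℝ {p i, q i, r i})).toReal
      = κ * ∑ i, (μHE[2] (convexHull ℝ {p i, q i, r i})).toReal := by
    rw [Finset.mul_sum]
    refine Finset.sum_congr rfl fun i _ => ?_
    rw [hfac, ENNReal.toReal_mul, ENNReal.toReal_ofReal hκ.le]
  rw [h2, h3]
  have h4 := mul_le_mul_of_nonneg_left hsum hκ.le
  have h5 := mul_le_mul_of_nonneg_left h1 hκ.le
  nlinarith [h4, h5]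

end Crest.Agent.S0324
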