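import Crest.Statements.S0328
import Crest.Agent.R211.S0328_Piece

set_option autoImplicit false
open MeasureTheory
open scoped ENNReal
open Crest Crest.GeometryTopology Crest.GeometryTopology.Convex

namespace Crest.Agent.S0328

/-- Unit e; a, b, p₀ ∈ e^⊥, a, b independent; α < β; L > 0; R ≥ 0, λ both continuous on [α, β]; w(t) ∈ e^⊥, w′ = λ(t)(a + tb). S = {p₀ + ρ(a + t b) + s(e + w t) : α ≤ t ≤ β, 0 ≤ ρ ≤ R t, ‖s‖ ≤ L}; A = κ ∫_α^β R²/(2√(1 + ‖w‖²)), κ = area spanned by a, b. For η > 0 a δ > 0 makes each partition t₀ < … < t_N of [α, β] of mesh ≤ δ, tags cᵢ, admit N cylinders (axes e + w(cᵢ), nondegenerate triangle bases) covering S, total area within η of A; same for S's pieces tᵢ ≤ t ≤ tᵢ₊₁ projected along these axes. -/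
theorem result
    (e a b p₀ : EuclideanSpace ℝ (Fin 3)) (he : ‖e‖ = 1)
    (ha : inner ℝ a e = 0) (hb : inner ℝ b e = 0) (hp₀ : inner ℝ p₀ e = 0)
    (hab : LinearIndependent ℝ ![a, b]) (L : ℝ) (hL : 0 < L) (α β : ℝ) (hαβ : α < β)
    (R : ℝ → ℝ) (hR : ContinuousOn R (Set.Icc α β)) (hR0 : ∀ t ∈ Set.Icc α β, 0 ≤ R t)
    (w : ℝ → EuclideanSpace ℝ (Fin 3)) (hw : ∀ t ∈ Set.Icc α β, inner ℝ (w t) e = 0)
    (lam : ℝ → ℝ) (hlam : ContinuousOn lam (Set.Icc α β))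
    (hw' : ∀ t ∈ Set.Icc α β, HasDerivWithinAt w (lam t • (a + t • b)) (Set.Icc α β) t)
    (η : ℝ) (hη : 0 < η) :
    ∃ δ : ℝ, 0 < δ ∧ ∀ (N : ℕ) (t : Fin (N + 1) → ℝ) (c : Fin N → ℝ),
      StrictMono t → t 0 = α → t (Fin.last N) = β →
      (∀ i : Fin N, t i.succ - t i.castSucc ≤ δ) →
      (∀ i : Fin N, t i.castSucc ≤ c i ∧ c i ≤ t i.succ) →
      (∃ (p q r : Fin N → EuclideanSpace ℝ (Fin 3)),
        (∀ i, inner ℝ (p i) (e + w (c i)) = 0 ∧ inner ℝ (q i) (e + w (c i)) = 0 ∧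
          inner ℝ (r i) (e + w (c i)) = 0) ∧
        (∀ i, AffineIndependent ℝ ![p i, q i, r i]) ∧
        {x : EuclideanSpace ℝ (Fin 3) | ∃ τ ∈ Set.Icc α β, ∃ ρ ∈ Set.Icc 0 (R τ), ∃ s : ℝ, abs s ≤ L ∧
            x = p₀ + ρ • (a + τ • b) + s • (e + w τ)} ⊆
          ⋃ i, {x : EuclideanSpace ℝ (Fin 3) | ∃ y ∈ convexHull ℝ {p i, q i, r i}, ∃ σ : ℝ,
            x = y + σ • (e + w (c i))} ∧
        abs ((∑ i, (μHE[2] (convexHull ℝ ({p i, q i, r i} : Set (EuclideanSpace ℝ (Fin 3))))).toReal) -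
            Real.sqrt (‖a‖ ^ 2 * ‖b‖ ^ 2 - inner ℝ a b ^ 2) *
              ∫ τ in α..β, R τ ^ 2 / (2 * Real.sqrt (1 + ‖w τ‖ ^ 2))) ≤ η) ∧
      abs ((∑ i : Fin N, (μHE[2] ((fun y => y - (inner ℝ y (e + w (c i)) / ‖e + w (c i)‖ ^ 2) • (e + w (c i))) ''
            {x : EuclideanSpace ℝ (Fin 3) | ∃ τ ∈ Set.Icc (t i.castSucc) (t i.succ), ∃ ρ ∈ Set.Icc 0 (R τ),
              ∃ s : ℝ, abs s ≤ L ∧ x = p₀ + ρ • (a + τ • b) + s • (e + w τ)})).toReal) -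
          Real.sqrt (‖a‖ ^ 2 * ‖b‖ ^ 2 - inner ℝ a b ^ 2) *
            ∫ τ in α..β, R τ ^ 2 / (2 * Real.sqrt (1 + ‖w τ‖ ^ 2))) ≤ η := by
  classical
  have hκ : 0 ≤ Real.sqrt (‖a‖ ^ 2 * ‖b‖ ^ 2 - inner ℝ a b ^ 2) := Real.sqrt_nonneg _
  have hκg : Real.sqrt (R211.gram a b) = Real.sqrt (‖a‖ ^ 2 * ‖b‖ ^ 2 - inner ℝ a b ^ 2) := rfl
  generalize Real.sqrt (‖a‖ ^ 2 * ‖b‖ ^ 2 - inner ℝ a b ^ 2) = κ at hκ hκg ⊢
  obtain ⟨Rmax, hRmax⟩ := isCompact_Icc.exists_bound_of_continuousOn hR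
  obtain ⟨Λ₀, hΛ₀⟩ := isCompact_Icc.exists_bound_of_continuousOn hlam
  have hβα : 0 < β - α := sub_pos.mpr hαβ
  have hα : α ∈ Set.Icc α β := Set.left_mem_Icc.mpr hαβ.le
  have hRmax0 : 0 ≤ Rmax := le_trans (norm_nonneg _) (hRmax α hα)
  have hΛ₀0 : 0 ≤ Λ₀ := le_trans (norm_nonneg _) (hΛ₀ α hα)
  obtain ⟨Λ, hΛdef⟩ : ∃ Λ, Λ = Λ₀ + 1 := ⟨_, rfl⟩
  have hΛpos : 0 < Λ := by linarith
  have hΛ : ∀ t ∈ Set.Icc α β, |lam t| ≤ Λ := fun t ht => by
    have := hΛ₀ t ht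
    rw [Real.norm_eq_abs] at this
    linarith
  have hK : 0 < κ + 1 := by linarith
  obtain ⟨ε, hεdef⟩ : ∃ ε, ε = η / (2 * (κ + 1)) := ⟨_, rfl⟩
  obtain ⟨E, hEdef⟩ : ∃ E, E = η / (2 * (κ + 1) * (β - α)) := ⟨_, rfl⟩
  have hε : 0 < ε := by rw [hεdef]; positivity
  have hE : 0 < E := by rw [hEdef]; positivity
  have hεE : κ * (ε + E * (β - α)) ≤ η := by
    have h1 : ε + E * (β - α) = η / (κ + 1) := by
      rw [hεdef, hEdef]; field_simp; ring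
    rw [h1, ← mul_div_assoc, div_le_iff₀ hK]
    nlinarith
  obtain ⟨ζ, hζdef⟩ : ∃ ζ, ζ = min 1 (E / (Rmax + 1)) := ⟨_, rfl⟩
  have hRm1 : 0 < Rmax + 1 := by linarith
  have hζ0 : 0 < ζ := by rw [hζdef]; exact lt_min one_pos (div_pos hE hRm1)
  have hζ1 : ζ ≤ 1 := by rw [hζdef]; exact min_le_left _ _
  have hζE : ζ * (Rmax + 1) ≤ E := by
    have : ζ ≤ E / (Rmax + 1) := by rw [hζdef]; exact min_le_right _ _
    rwa [le_div_iff₀ hRm1] at this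
  have hcw : ContinuousOn w (Set.Icc α β) := fun t ht => (hw' t ht).continuousWithinAt
  have hf : ContinuousOn (fun τ => R τ ^ 2 / (2 * Real.sqrt (1 + ‖w τ‖ ^ 2))) (Set.Icc α β) := by
    apply ContinuousOn.div (hR.pow 2)
    · exact continuousOn_const.mul
        (Real.continuous_sqrt.comp_continuousOn (continuousOn_const.add (hcw.norm.pow 2)))
    · intro τ _
      have : 0 < Real.sqrt (1 + ‖w τ‖ ^ 2) := Real.sqrt_pos.mpr (by positivity)
      positivity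
  obtain ⟨δ₁, hδ₁, hRiem⟩ := R211.S0328.riemann_sum_close _ α β hαβ hf ε hε
  obtain ⟨δ₂, hδ₂, hunif⟩ := Metric.uniformContinuousOn_iff.mp
    (isCompact_Icc.uniformContinuousOn_of_continuous hR) (ζ / 2) (half_pos hζ0)
  have hLΛ : 0 < L * Λ := mul_pos hL hΛpos
  refine ⟨min δ₁ (min (δ₂ / 2) (ζ / (10 * (L * Λ)))),
    lt_min hδ₁ (lt_min (half_pos hδ₂) (by positivity)), ?_⟩
  intro N t c ht h0 hN hmesh htag
  have hmem : ∀ j, t j ∈ Set.Icc α β := fun j => by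
    have := R211.S0328.mem_Icc_of_partition N t ht j
    rwa [h0, hN] at this
  have hlt : ∀ i : Fin N, t i.castSucc < t i.succ := fun i => ht Fin.castSucc_lt_succ
  have hcmem : ∀ i : Fin N, c i ∈ Set.Icc α β := fun i =>
    ⟨(hmem _).1.trans (htag i).1, (htag i).2.trans (hmem _).2⟩
  have hosc : ∀ i : Fin N, ∀ τ ∈ Set.Icc (t i.castSucc) (t i.succ), |R τ - R (c i)| ≤ ζ / 2 := by
    intro i τ hτ
    have hτ' : τ ∈ Set.Icc α β := ⟨(hmem _).1.trans hτ.1, hτ.2.trans (hmem _).2⟩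
    have hd : dist τ (c i) < δ₂ := by
      rw [Real.dist_eq]
      have h1 : |τ - c i| ≤ t i.succ - t i.castSucc := by
        rw [abs_le]; constructor <;> linarith [hτ.1, hτ.2, (htag i).1, (htag i).2]
      have h2 : t i.succ - t i.castSucc ≤ δ₂ / 2 :=
        (hmesh i).trans ((min_le_right _ _).trans (min_le_left _ _))
      linarith
    have := hunif τ hτ' (c i) (hcmem i) hd
    rw [Real.dist_eq] at this
    exact this.le
  have hm : ∀ i : Fin N, 5 * (L * Λ * (t i.succ - t i.castSucc)) ≤ ζ / 2 := by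
    intro i
    have h2 : t i.succ - t i.castSucc ≤ ζ / (10 * (L * Λ)) :=
      (hmesh i).trans ((min_le_right _ _).trans (min_le_right _ _))
    rw [le_div_iff₀ (by positivity)] at h2
    linarith
  have hdata := fun i : Fin N => R211.S0328.piece_data e a b p₀ he ha hb hab L hL α β R hR0 w hw
    lam hlam hw' Λ hΛ (t i.castSucc) (t i.succ) (c i) (hmem _).1 (hmem _).2 (hlt i)
    (htag i).1 (htag i).2 ζ hζ0 (hosc i) (hm i)
  choose p q r hperp haff hcov harea hup hlow using hdata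
  rw [hκg] at harea hup hlow
  have hRi := hRiem N t c ht h0 hN (fun i => (hmesh i).trans (min_le_left _ _)) htag
  have hs1 : ∀ i : Fin N, 1 ≤ Real.sqrt (1 + ‖w (c i)‖ ^ 2) := fun i => by
    rw [Real.one_le_sqrt]
    have : 0 ≤ ‖w (c i)‖ ^ 2 := by positivity
    linarith
  have hRc : ∀ i : Fin N, R (c i) ≤ Rmax := fun i =>
    (le_abs_self _).trans (by have := hRmax (c i) (hcmem i); rwa [Real.norm_eq_abs] at this)
  have hout := R211.S0328.key_sum κ hκ R w α β N t c ht h0 hN ε E hRi (fun i => R (c i) + ζ)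
    (fun i => R211.S0328.est_outer _ Rmax ζ E _ (hR0 _ (hcmem i)) (hRc i) hζ0 hζ1 hζE (hs1 i))
  have hin := R211.S0328.key_sum κ hκ R w α β N t c ht h0 hN ε E hRi
    (fun i => max (R (c i) - ζ / 2) 0)
    (fun i => R211.S0328.est_inner _ Rmax ζ E _ (hR0 _ (hcmem i)) (hRc i) hζ0 hζE (hs1 i))
  have hΔ : ∀ i : Fin N, 0 ≤ t i.succ - t i.castSucc := fun i => sub_nonneg.mpr (hlt i).le
  have hnn : ∀ (i : Fin N) (x : ℝ),
      0 ≤ κ * (x ^ 2 / (2 * Real.sqrt (1 + ‖w (c i)‖ ^ 2)) * (t i.succ - t i.castSucc)) :=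
    fun i x => mul_nonneg hκ (mul_nonneg (by positivity) (hΔ i))
  constructor
  · refine ⟨p, q, r, hperp, haff, ?_, ?_⟩
    · rintro x ⟨τ, hτ, ρ, hρ, s, hs, rfl⟩
      obtain ⟨i, hi⟩ := R211.S0328.exists_piece τ N t ht (by rw [h0, hN]; exact hαβ)
        (by rw [h0]; exact hτ.1) (by rw [hN]; exact hτ.2)
      exact Set.mem_iUnion.mpr ⟨i, hcov i ⟨τ, hi, ρ, hρ, s, hs, rfl⟩⟩
    · have : ∀ i, (μHE[2] (convexHull ℝ ({p i, q i, r i} : Set (EuclideanSpace ℝ (Fin 3))))).toReal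
          = κ * ((R (c i) + ζ) ^ 2 / (2 * Real.sqrt (1 + ‖w (c i)‖ ^ 2)) *
            (t i.succ - t i.castSucc)) := fun i => by
        rw [harea i, ENNReal.toReal_ofReal (hnn i _)]
      simp_rw [this]
      exact hout.trans hεE
  · have hle : ∀ i : Fin N, (μHE[2] ((fun y => y - (inner ℝ y (e + w (c i)) / ‖e + w (c i)‖ ^ 2) •
            (e + w (c i))) ''
            {x : EuclideanSpace ℝ (Fin 3) | ∃ τ ∈ Set.Icc (t i.castSucc) (t i.succ),
              ∃ ρ ∈ Set.Icc 0 (R τ),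
              ∃ s : ℝ, abs s ≤ L ∧ x = p₀ + ρ • (a + τ • b) + s • (e + w τ)})).toReal ≤
          κ * ((R (c i) + ζ) ^ 2 / (2 * Real.sqrt (1 + ‖w (c i)‖ ^ 2)) *
            (t i.succ - t i.castSucc)) := fun i =>
      ENNReal.toReal_le_of_le_ofReal (hnn i _) (hup i)
    have hge : ∀ i : Fin N, κ * ((max (R (c i) - ζ / 2) 0) ^ 2 /
            (2 * Real.sqrt (1 + ‖w (c i)‖ ^ 2)) * (t i.succ - t i.castSucc)) ≤
          (μHE[2] ((fun y => y - (inner ℝ y (e + w (c i)) / ‖e + w (c i)‖ ^ 2) •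
            (e + w (c i))) ''
            {x : EuclideanSpace ℝ (Fin 3) | ∃ τ ∈ Set.Icc (t i.castSucc) (t i.succ),
              ∃ ρ ∈ Set.Icc 0 (R τ),
              ∃ s : ℝ, abs s ≤ L ∧ x = p₀ + ρ • (a + τ • b) + s • (e + w τ)})).toReal := fun i =>
      (ENNReal.ofReal_le_iff_le_toReal
        (ne_top_of_le_ne_top ENNReal.ofReal_ne_top (hup i))).mp (hlow i)
    have h1 := abs_le.mp (hin.trans hεE)
    have h2 := abs_le.mp (hout.trans hεE)
    have h3 := Finset.sum_le_sum (fun i (_ : i ∈ Finset.univ) => hle i)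
    have h4 := Finset.sum_le_sum (fun i (_ : i ∈ Finset.univ) => hge i)
    rw [abs_le]
    constructor
    · linarith [h1.1]
    · linarith [h2.2]

end Crest.Agent.S0328
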