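import Crest.Statements.S0329
import Crest.Agent.S0326
import Crest.Agent.R211.Piece

set_option autoImplicit false
open MeasureTheory
open scoped ENNReal
open Crest Crest.GeometryTopology Crest.GeometryTopology.Convex

namespace Crest.Agent.S0329

/-- Let h, M > 0, D ⊂ ℝ² be compact with Lebesgue-null boundary, and V : ℝ² → ℝ² be C¹ on an open set containing D with tr DV(p) = 0 and −1/M² < det DV(p) < 0 for p ∈ D. For every ε > 0 the set of points (x, p₁ + x V₁(p), h (p₂ + x V₂(p))) ∈ ℝ³ with p ∈ D, −M ≤ x ≤ M is covered by finitely many cylinders Bᵢ + ℝ uᵢ, ‖uᵢ‖ = 1, with bases Bᵢ bounded relatively open subsets of the planes uᵢ^⊥ and ∑ᵢ area(Bᵢ) ≤ h ∫_D (1 + V₁² + h² V₂²)^(−1/2) + ε (areas: normalised 2-dimensional Hausdorff measure). -/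
theorem result
    (h M : ℝ) (hh : 0 < h) (hM : 0 < M) (D : Set (EuclideanSpace ℝ (Fin 2))) (hD : IsCompact D)
    (hbd : volume (frontier D) = 0)
    (V : EuclideanSpace ℝ (Fin 2) → EuclideanSpace ℝ (Fin 2)) (U : Set (EuclideanSpace ℝ (Fin 2)))
    (hU : IsOpen U) (hDU : D ⊆ U) (hV : ContDiffOn ℝ 1 V U)
    (htr : ∀ p ∈ D, LinearMap.trace ℝ _ (fderiv ℝ V p).toLinearMap = 0)
    (hdet : ∀ p ∈ D, -(M ^ 2)⁻¹ < LinearMap.det (fderiv ℝ V p).toLinearMap ∧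
      LinearMap.det (fderiv ℝ V p).toLinearMap < 0)
    (ε : ℝ) (hε : 0 < ε) :
    ∃ (k : ℕ) (u : Fin k → EuclideanSpace ℝ (Fin 3)) (B : Fin k → Set (EuclideanSpace ℝ (Fin 3))),
      (∀ i, ‖u i‖ = 1) ∧
      (∀ i, Bornology.IsBounded (B i) ∧ ∃ O : Set (EuclideanSpace ℝ (Fin 3)), IsOpen O ∧
        B i = O ∩ {x | inner ℝ x (u i) = 0}) ∧
      {z : EuclideanSpace ℝ (Fin 3) | ∃ p ∈ D, ∃ x : ℝ, abs x ≤ M ∧
          z = !₂[x, p 0 + x * V p 0, h * (p 1 + x * V p 1)]} ⊆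
        ⋃ i, {z : EuclideanSpace ℝ (Fin 3) | ∃ y ∈ B i, ∃ τ : ℝ, z = y + τ • u i} ∧
      ∑ i, (μHE[2] (B i)).toReal ≤
        h * (∫ p in D, 1 / Real.sqrt (1 + (V p 0) ^ 2 + h ^ 2 * (V p 1) ^ 2)) + ε := by
  classical
  obtain ⟨k, c, a, b, g, hab, hcov, hsum⟩ := Crest.Agent.S0326.result D hD V U hU hDU hV M h hM hh
    htr (fun p hp => ⟨(hdet p hp).1, (hdet p hp).2.le⟩) (ε / (2 * h)) (by positivity)
  have hη : 0 < ε / (2 * ((k : ℝ) + 1)) := by positivity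
  have key := fun i => Crest.Agent.R211.T5_piece h hh (c i) (a i) (b i) (g i) (hab i).2.1
    (hab i).2.2 (ε / (2 * ((k : ℝ) + 1))) hη
  choose u B hu hBb hBo hBc hBa using key
  refine ⟨k, u, B, hu, fun i => ⟨hBb i, hBo i⟩, ?_, ?_⟩
  · rintro z ⟨p, hp, x, hx, rfl⟩
    have hmem : ((x, p + x • V p) : ℝ × EuclideanSpace ℝ (Fin 2)) ∈
        {z : ℝ × EuclideanSpace ℝ (Fin 2) | ∃ p ∈ D, abs z.1 ≤ M ∧ z.2 = p + z.1 • V p} :=
      ⟨p, hp, hx, rfl⟩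
    obtain ⟨i, s, hs, t, ht, hst⟩ := Set.mem_iUnion.mp (hcov hmem)
    simp only at hst
    obtain ⟨y, hy, τ, hτ⟩ := hBc i x s t hs ht
    refine Set.mem_iUnion.mpr ⟨i, y, hy, τ, ?_⟩
    rw [← hτ]
    have h0 := congrArg (fun w : EuclideanSpace ℝ (Fin 2) => w 0) hst
    have h1 := congrArg (fun w : EuclideanSpace ℝ (Fin 2) => w 1) hst
    simp only [PiLp.add_apply, PiLp.smul_apply, smul_eq_mul] at h0 h1
    rw [h0, h1]
  · calc ∑ i, (μHE[2] (B i)).toReal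
        ≤ ∑ i : Fin k, (h * (‖a i‖ ^ 2 / Real.sqrt (1 + (g i 0) ^ 2 + h ^ 2 * (g i 1) ^ 2)) +
            ε / (2 * ((k : ℝ) + 1))) := Finset.sum_le_sum (fun i _ => hBa i)
      _ = h * ∑ i : Fin k, ‖a i‖ ^ 2 / Real.sqrt (1 + (g i 0) ^ 2 + h ^ 2 * (g i 1) ^ 2) +
            k * (ε / (2 * ((k : ℝ) + 1))) := by
          rw [Finset.sum_add_distrib, Finset.mul_sum]
          simp
      _ ≤ h * ((∫ p in D, 1 / Real.sqrt (1 + (V p 0) ^ 2 + h ^ 2 * (V p 1) ^ 2)) + ε / (2 * h)) +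
            ε / 2 := by
          apply add_le_add (mul_le_mul_of_nonneg_left hsum hh.le)
          have hk : (0 : ℝ) ≤ k := Nat.cast_nonneg k
          rw [mul_div_assoc', div_le_div_iff₀ (by positivity) (by norm_num)]
          nlinarith
      _ = h * (∫ p in D, 1 / Real.sqrt (1 + (V p 0) ^ 2 + h ^ 2 * (V p 1) ^ 2)) + ε := by
          field_simp
          ring

end Crest.Agent.S0329
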