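import Crest.Agent.S0423_Defs

set_option autoImplicit false

namespace Crest.Agent.S0423

open MeasureTheory Set

/-- four point inequality for concave functions on the line -/
theorem T3_four_point {l : ℝ → ℝ} (hl : ConcaveOn ℝ Set.univ l) {y y' w : ℝ} (hy : y ≤ y')
    (hw : 0 ≤ w) : l y + l (y' + w) ≤ l y' + l (y + w) := by
  rcases eq_or_lt_of_le (add_nonneg (sub_nonneg.2 hy) hw) with h0 | hD
  · have h1 : y' = y := by linarith
    have h2 : w = 0 := by linarith
    subst h1; subst h2; simp
  · set D := y' - y + w with hDdef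
    have e1 : (w / D) * y + ((y' - y) / D) * (y' + w) = y' := by
      field_simp
      rw [hDdef]; ring
    have e2 : ((y' - y) / D) * y + (w / D) * (y' + w) = y + w := by
      field_simp
      rw [hDdef]; ring
    have hs : w / D + (y' - y) / D = 1 := by
      field_simp
      rw [hDdef]; ring
    have hs' : (y' - y) / D + w / D = 1 := by rw [add_comm]; exact hs
    have a1 : 0 ≤ w / D := div_nonneg hw hD.le
    have a2 : 0 ≤ (y' - y) / D := div_nonneg (sub_nonneg.2 hy) hD.le
    have c1 := hl.2 (mem_univ y) (mem_univ (y' + w)) a1 a2 hs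
    have c2 := hl.2 (mem_univ y) (mem_univ (y' + w)) a2 a1 hs'
    simp only [smul_eq_mul] at c1 c2
    rw [e1] at c1
    rw [e2] at c2
    have : (w / D) * l y + ((y' - y) / D) * l (y' + w) + (((y' - y) / D) * l y + (w / D) * l (y' + w))
        = l y + l (y' + w) := by
      have : (w / D) * l y + ((y' - y) / D) * l (y' + w) + (((y' - y) / D) * l y + (w / D) * l (y' + w))
        = (w / D + (y' - y) / D) * (l y + l (y' + w)) := by ring
      rw [this, hs, one_mul]
    linarith

/-- translation of an integral over a half line -/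
theorem T3_Ioi_shift (p : ℝ → ℝ) (y : ℝ) :
    ∫ z in Ioi y, p z = ∫ w in Ioi (0 : ℝ), p (y + w) := by
  have h := (measurePreserving_add_left (volume : Measure ℝ) y).setIntegral_preimage_emb
    (measurableEmbedding_addLeft y) p (Ioi y)
  have hpre : (fun x => y + x) ⁻¹' Ioi y = Ioi (0 : ℝ) := by
    ext x; simp
  rw [hpre] at h
  exact h.symm


theorem T3_integrableOn_shift {p : ℝ → ℝ} {y : ℝ} (h : IntegrableOn p (Ioi y)) :
    IntegrableOn (fun w => p (y + w)) (Ioi (0 : ℝ)) := by
  have hpre : (fun x => y + x) ⁻¹' Ioi y = Ioi (0 : ℝ) := by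
    ext x; simp
  have := (measurePreserving_add_left (volume : Measure ℝ) y).integrableOn_comp_preimage
    (measurableEmbedding_addLeft y) (f := p) (s := Ioi y)
  rw [hpre] at this
  exact this.2 h

/-- TAIL LEMMA -/
theorem T3_tail {p : ℝ → ℝ} (hp : ∀ z, 0 < p z) (hc : Continuous p)
    (hl : ConcaveOn ℝ Set.univ (fun z => Real.log (p z))) (hi : ∀ y, IntegrableOn p (Ioi y)) :
    ConcaveOn ℝ Set.univ (fun y => Real.log (∫ z in Ioi y, p z)) := by
  set P : ℝ → ℝ := fun y => ∫ z in Ioi y, p z with hP
  have hPpos : ∀ y, 0 < P y := by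
    intro y
    have := (setIntegral_pos_iff_support_of_nonneg_ae (μ := volume) (s := Ioi y) (f := p)
      (Filter.Eventually.of_forall fun z => (hp z).le) (hi y)).2
    apply this
    have hs : Function.support p = Set.univ := by
      ext z; simp [(hp z).ne']
    rw [hs, univ_inter]
    simp
  have hderiv : ∀ y, HasDerivAt P (-p y) y := by
    intro y
    have h1 : ∀ t, P t = P 0 - ∫ z in (0:ℝ)..t, p z := by
      intro t
      have := intervalIntegral.integral_Ioi_sub_Ioi' (hi 0) (hi t)
      simp only [hP]
      linarith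
    have h2 : HasDerivAt (fun t => ∫ z in (0:ℝ)..t, p z) (p y) y :=
      intervalIntegral.integral_hasDerivAt_right (hc.intervalIntegrable _ _)
        (hc.stronglyMeasurableAtFilter _ _) hc.continuousAt
    have h3 : HasDerivAt (fun t => P 0 - ∫ z in (0:ℝ)..t, p z) (-p y) y := by
      simpa using h2.const_sub (P 0)
    have : P = fun t => P 0 - ∫ z in (0:ℝ)..t, p z := funext h1
    rw [this]
    exact h3
  have hlog : ∀ y, HasDerivAt (fun y => Real.log (P y)) (-p y / P y) y := fun y =>
    (hderiv y).log (hPpos y).ne'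
  have key : ∀ y y', y ≤ y' → p y * P y' ≤ p y' * P y := by
    intro y y' hyy'
    simp only [hP]
    rw [T3_Ioi_shift p y', T3_Ioi_shift p y, ← integral_const_mul, ← integral_const_mul]
    apply setIntegral_mono_on ((T3_integrableOn_shift (hi y')).const_mul _)
      ((T3_integrableOn_shift (hi y)).const_mul _) measurableSet_Ioi
    intro w hw
    have h4 := T3_four_point hl hyy' (le_of_lt hw)
    rw [← Real.log_mul (hp _).ne' (hp _).ne', ← Real.log_mul (hp _).ne' (hp _).ne'] at h4
    exact (Real.log_le_log_iff (mul_pos (hp _) (hp _)) (mul_pos (hp _) (hp _))).1 h4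
  apply AntitoneOn.concaveOn_of_deriv convex_univ
  · exact fun y _ => (hlog y).continuousAt.continuousWithinAt
  · exact fun y _ => (hlog y).differentiableAt.differentiableWithinAt
  · intro y _ y' _ hyy'
    rw [(hlog y).deriv, (hlog y').deriv]
    rw [neg_div, neg_div, neg_le_neg_iff, div_le_div_iff₀ (hPpos y) (hPpos y')]
    exact key y y' hyy'


theorem T3_concave_neg {f : ℝ → ℝ} (hf : ConcaveOn ℝ Set.univ f) :
    ConcaveOn ℝ Set.univ (fun y => f (-y)) := by
  refine ⟨convex_univ, fun x _ y _ a c ha hc hac => ?_⟩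
  have := hf.2 (mem_univ (-x)) (mem_univ (-y)) ha hc hac
  simp only [smul_eq_mul] at this ⊢
  have e : -(a * x + c * y) = a * -x + c * -y := by ring
  rw [e]
  exact this

theorem T3_concave_affine (α β : ℝ) : ConcaveOn ℝ Set.univ (fun y : ℝ => α + β * y) := by
  refine ⟨convex_univ, fun x _ y _ a c ha hc hac => ?_⟩
  simp only [smul_eq_mul]
  have : a * (α + β * x) + c * (α + β * y) = (a + c) * α + β * (a * x + c * y) := by ring
  rw [this, hac, one_mul]

theorem T3_pos_case {Ψ : ℝ → ℝ} (hpos : ∀ y, 0 < Ψ y) (hle : ∀ y, Ψ y ≤ 1)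
    (hconc : ConcaveOn ℝ Set.univ (fun y => Real.log (Ψ y))) {b : ℝ} (hb : 0 < b) :
    ConcaveOn ℝ Set.univ (fun y => Real.log (T b Ψ y)) := by
  have hLc : Continuous (fun y => Real.log (Ψ y)) := by
    rw [← continuousOn_univ]
    exact hconc.continuousOn isOpen_univ
  have hΨc : Continuous Ψ := by
    have : Ψ = fun y => Real.exp (Real.log (Ψ y)) := by
      funext y; rw [Real.exp_log (hpos y)]
    rw [this]
    exact Real.continuous_exp.comp hLc
  set p : ℝ → ℝ := fun z => Ψ z * Real.exp (-(1 / b) * z) with hp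
  have hppos : ∀ z, 0 < p z := fun z => mul_pos (hpos z) (Real.exp_pos _)
  have hpc : Continuous p := by
    simp only [hp]
    fun_prop
  have hpl : ConcaveOn ℝ Set.univ (fun z => Real.log (p z)) := by
    have : (fun z => Real.log (p z)) = fun z => Real.log (Ψ z) + (0 + (-(1 / b)) * z) := by
      funext z
      simp only [hp]
      rw [Real.log_mul (hpos z).ne' (Real.exp_pos _).ne', Real.log_exp]
      ring
    rw [this]
    exact hconc.add (T3_concave_affine 0 (-(1 / b)))
  have hpi : ∀ y, IntegrableOn p (Ioi y) := by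
    intro y
    have h1 : IntegrableOn (fun x => Real.exp (-(1 / b) * x)) (Ioi y) :=
      exp_neg_integrableOn_Ioi y (by positivity)
    refine Integrable.mono' h1 hpc.aestronglyMeasurable (Filter.Eventually.of_forall fun z => ?_)
    rw [Real.norm_of_nonneg (hppos z).le]
    simp only [hp]
    exact mul_le_of_le_one_left (Real.exp_pos _).le (hle z)
  have hT : ∀ y, T b Ψ y = b⁻¹ * Real.exp ((1 / b) * y) * ∫ z in Ioi y, p z := by
    intro y
    have h1 : ∫ x in Ioi (0:ℝ), p (y + b * x) = b⁻¹ * ∫ w in Ioi (0:ℝ), p (y + w) := by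
      have := integral_comp_mul_left_Ioi (fun w => p (y + w)) 0 hb
      simpa using this
    have h2 : T b Ψ y = Real.exp ((1 / b) * y) * ∫ x in Ioi (0:ℝ), p (y + b * x) := by
      rw [← integral_const_mul]
      simp only [T, K, wE, hp]
      apply setIntegral_congr_fun measurableSet_Ioi
      intro x _
      simp only
      have : Real.exp (-x) = Real.exp ((1 / b) * y) * Real.exp (-(1 / b) * (y + b * x)) := by
        rw [← Real.exp_add]
        congr 1
        field_simp
        ring
      rw [this]
      ring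
    rw [h2, h1, T3_Ioi_shift p y]
    ring
  have hPpos : ∀ y, 0 < ∫ z in Ioi y, p z := by
    intro y
    have := (setIntegral_pos_iff_support_of_nonneg_ae (μ := volume) (s := Ioi y) (f := p)
      (Filter.Eventually.of_forall fun z => (hppos z).le) (hpi y)).2
    apply this
    have hs : Function.support p = Set.univ := by
      ext z; simp [(hppos z).ne']
    rw [hs, univ_inter]
    simp
  have hfin : (fun y => Real.log (T b Ψ y)) =
      fun y => (Real.log b⁻¹ + (1 / b) * y) + Real.log (∫ z in Ioi y, p z) := by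
    funext y
    rw [hT y, Real.log_mul (by positivity) (hPpos y).ne', Real.log_mul (by positivity)
      (Real.exp_pos _).ne', Real.log_exp]
  rw [hfin]
  exact (T3_concave_affine _ _).add (T3_tail hppos hpc hpl hpi)

theorem T_conc {Ψ : ℝ → ℝ} (hpos : ∀ y, 0 < Ψ y) (hle : ∀ y, Ψ y ≤ 1)
    (hconc : ConcaveOn ℝ Set.univ (fun y => Real.log (Ψ y))) (b : ℝ) :
    ConcaveOn ℝ Set.univ (fun y => Real.log (T b Ψ y)) := by
  rcases lt_trichotomy b 0 with hb | hb | hb
  · have h1 := T3_pos_case (Ψ := fun z => Ψ (-z)) (fun y => hpos _) (fun y => hle _)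
      (T3_concave_neg hconc) (b := -b) (by linarith)
    have h2 := T3_concave_neg h1
    have : (fun y => Real.log (T b Ψ y)) = fun y => Real.log (T (-b) (fun z => Ψ (-z)) (-y)) := by
      funext y
      congr 1
      simp only [T, K]
      apply setIntegral_congr_fun measurableSet_Ioi
      intro x _
      simp only
      congr 2
      ring
    rw [this]
    exact h2
  · subst hb
    have : (fun y => Real.log (T 0 Ψ y)) = fun y => Real.log (Ψ y) := by
      funext y
      congr 1
      simp only [T, K, wE, zero_mul, add_zero]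
      rw [integral_const_mul, integral_exp_neg_Ioi_zero, mul_one]
    rw [this]
    exact hconc
  · exact T3_pos_case hpos hle hconc hb

end Crest.Agent.S0423
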