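import Crest.Agent.S0423_Defs

set_option autoImplicit false

namespace Crest.Agent.S0423

open MeasureTheory Set

noncomputable section

theorem T4_H_eq_indicator : H = (Ioi (0:ℝ)).indicator (fun _ => (1:ℝ)) := by
  funext y
  simp [H, indicator, mem_Ioi]

theorem T4_measurable_H : Measurable H := by
  rw [T4_H_eq_indicator]
  exact measurable_const.indicator measurableSet_Ioi

/-- integrability of `x e^{-x}` on `(0,∞)` and its integral. -/
theorem T4_integrableOn_id_mul_exp : IntegrableOn (fun x : ℝ => x * Real.exp (-x)) (Ioi 0) := by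
  have h := Real.GammaIntegral_convergent (s := 2) (by norm_num)
  refine h.congr_fun (fun x hx => ?_) measurableSet_Ioi
  have : (2:ℝ) - 1 = 1 := by norm_num
  simp only [this, Real.rpow_one]
  ring

theorem T4_integral_id_mul_exp : ∫ x in Ioi (0:ℝ), x * Real.exp (-x) = 1 := by
  have h := Real.Gamma_eq_integral (s := 2) (by norm_num)
  have h2 : Real.Gamma 2 = 1 := Real.Gamma_two
  rw [h2] at h
  rw [h]
  refine setIntegral_congr_fun measurableSet_Ioi (fun x hx => ?_)
  have : (2:ℝ) - 1 = 1 := by norm_num
  simp only [this, Real.rpow_one]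
  ring

theorem T4_shift_eq_of_nonneg {c : ℝ} (hc : 0 ≤ c) :
    (fun y => H (y + c) - H y) = (Ioc (-c) 0).indicator (fun _ => (1:ℝ)) := by
  funext y
  simp only [H, indicator, mem_Ioc]
  by_cases h1 : 0 < y
  · have h2 : 0 < y + c := by linarith
    have h3 : ¬ (-c < y ∧ y ≤ 0) := fun h => by linarith [h.2]
    rw [if_pos h1, if_pos h2, if_neg h3]; ring
  · by_cases h2 : 0 < y + c
    · have h3 : (-c < y ∧ y ≤ 0) := ⟨by linarith, by linarith⟩
      rw [if_neg h1, if_pos h2, if_pos h3]; ring
    · have h3 : ¬ (-c < y ∧ y ≤ 0) := fun h => by linarith [h.1]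
      rw [if_neg h1, if_neg h2, if_neg h3]; ring

theorem T4_shift_eq_of_nonpos {c : ℝ} (hc : c ≤ 0) :
    (fun y => H (y + c) - H y) = (Ioc 0 (-c)).indicator (fun _ => (-1:ℝ)) := by
  funext y
  simp only [H, indicator, mem_Ioc]
  by_cases h1 : 0 < y
  · by_cases h2 : 0 < y + c
    · have h3 : ¬ (0 < y ∧ y ≤ -c) := fun h => by linarith [h.2]
      rw [if_pos h1, if_pos h2, if_neg h3]; ring
    · have h3 : (0 < y ∧ y ≤ -c) := ⟨h1, by linarith⟩
      rw [if_pos h1, if_neg h2, if_pos h3]; ring
  · have h2 : ¬ 0 < y + c := by linarith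
    have h3 : ¬ (0 < y ∧ y ≤ -c) := fun h => h1 h.1
    rw [if_neg h1, if_neg h2, if_neg h3]; ring

theorem T4_shift_integrable (c : ℝ) : Integrable (fun y => H (y + c) - H y) := by
  rcases le_total 0 c with hc | hc
  · rw [T4_shift_eq_of_nonneg hc]
    exact (integrable_indicator_iff measurableSet_Ioc).2 (integrableOn_const (by simp))
  · rw [T4_shift_eq_of_nonpos hc]
    exact (integrable_indicator_iff measurableSet_Ioc).2 (integrableOn_const (by simp))

theorem T4_shift_integral (c : ℝ) : ∫ y, (H (y + c) - H y) = c := by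
  rcases le_total 0 c with hc | hc
  · rw [T4_shift_eq_of_nonneg hc, integral_indicator measurableSet_Ioc]
    simp [hc]
  · rw [T4_shift_eq_of_nonpos hc, integral_indicator measurableSet_Ioc]
    simp [hc]

theorem T4_shift_integral_norm (c : ℝ) : ∫ y, ‖H (y + c) - H y‖ = |c| := by
  rcases le_total 0 c with hc | hc
  · have : (fun y => ‖H (y + c) - H y‖) = (Ioc (-c) 0).indicator (fun _ => (1:ℝ)) := by
      funext y
      have := congrFun (T4_shift_eq_of_nonneg hc) y
      rw [this]
      by_cases h : y ∈ Ioc (-c) 0 <;> simp [indicator, h]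
    rw [this, integral_indicator measurableSet_Ioc]
    simp [hc, abs_of_nonneg hc]
  · have : (fun y => ‖H (y + c) - H y‖) = (Ioc 0 (-c)).indicator (fun _ => (1:ℝ)) := by
      funext y
      have := congrFun (T4_shift_eq_of_nonpos hc) y
      rw [this]
      by_cases h : y ∈ Ioc 0 (-c) <;> simp [indicator, h]
    rw [this, integral_indicator measurableSet_Ioc]
    simp [hc, abs_of_nonpos hc]

theorem T_mean {Ψ : ℝ → ℝ} (h : M01 Ψ) (hint : Integrable (fun y => Ψ y - H y)) (b : ℝ) :
    Integrable (fun y => T b Ψ y - H y) ∧ ∫ y, (T b Ψ y - H y) = (∫ y, (Ψ y - H y)) + b := by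
  set ν : Measure ℝ := volume.restrict (Ioi (0:ℝ)) with hν
  have hΨm : Measurable Ψ := h.mono.measurable
  have hHm : Measurable H := T4_measurable_H
  have hexp : Integrable (fun x : ℝ => Real.exp (-x)) ν := integrableOn_exp_neg_Ioi 0
  have hxexp : Integrable (fun x : ℝ => x * Real.exp (-x)) ν := T4_integrableOn_id_mul_exp
  let F₁ : ℝ × ℝ → ℝ := fun p => (Ψ (p.1 + b * p.2) - H (p.1 + b * p.2)) * Real.exp (-p.2)
  let F₂ : ℝ × ℝ → ℝ := fun p => (H (p.1 + b * p.2) - H p.1) * Real.exp (-p.2)
  have hlin : Measurable (fun p : ℝ × ℝ => p.1 + b * p.2) :=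
    measurable_fst.add (measurable_snd.const_mul b)
  have hem : Measurable (fun p : ℝ × ℝ => Real.exp (-p.2)) :=
    Real.measurable_exp.comp measurable_snd.neg
  have hF₁m : Measurable F₁ := ((hΨm.comp hlin).sub (hHm.comp hlin)).mul hem
  have hF₂m : Measurable F₂ := ((hHm.comp hlin).sub (hHm.comp measurable_fst)).mul hem
  have hF₁ : Integrable F₁ (volume.prod ν) := by
    rw [integrable_prod_iff' hF₁m.aestronglyMeasurable]
    constructor
    · exact Filter.Eventually.of_forall
        (fun x => (hint.comp_add_right (b * x)).mul_const (Real.exp (-x)))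
    · have : (fun x => ∫ y, ‖F₁ (y, x)‖) = fun x => (∫ y, ‖Ψ y - H y‖) * Real.exp (-x) := by
        funext x
        simp only [F₁, norm_mul]
        rw [integral_mul_const, Real.norm_eq_abs (Real.exp (-x)), abs_of_pos (Real.exp_pos _)]
        congr 1
        exact integral_add_right_eq_self (fun y => ‖Ψ y - H y‖) (b * x)
      rw [this]
      exact hexp.const_mul _
  have hF₂ : Integrable F₂ (volume.prod ν) := by
    rw [integrable_prod_iff' hF₂m.aestronglyMeasurable]
    constructor
    · exact Filter.Eventually.of_forall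
        (fun x => (T4_shift_integrable (b * x)).mul_const (Real.exp (-x)))
    · have : (fun x => ∫ y, ‖F₂ (y, x)‖) = fun x => |b * x| * Real.exp (-x) := by
        funext x
        simp only [F₂, norm_mul]
        rw [integral_mul_const, Real.norm_eq_abs (Real.exp (-x)), abs_of_pos (Real.exp_pos _),
          T4_shift_integral_norm]
      rw [this]
      refine (hxexp.const_mul |b|).congr ?_
      filter_upwards [ae_restrict_mem measurableSet_Ioi] with x hx
      rw [abs_mul, abs_of_pos (show (0:ℝ) < x from hx)]
      ring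
  have hF : Integrable (Function.uncurry fun y x => F₁ (y, x) + F₂ (y, x)) (volume.prod ν) :=
    hF₁.add hF₂
  have hkey : ∀ y, T b Ψ y - H y = ∫ x, (F₁ (y, x) + F₂ (y, x)) ∂ν := by
    intro y
    have h1 : Integrable (fun x => Ψ (y + b * x) * Real.exp (-x)) ν := by
      refine hexp.bdd_mul (c := 1) ?_ ?_
      · exact (hΨm.comp ((measurable_id.const_mul b).const_add y)).aestronglyMeasurable
      · refine Filter.Eventually.of_forall (fun x => ?_)
        rw [Real.norm_eq_abs, abs_of_nonneg (h.nonneg _)]
        exact h.le_one _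
    have h2 : Integrable (fun x => H y * Real.exp (-x)) ν := hexp.const_mul _
    have h3 : ∫ x, H y * Real.exp (-x) ∂ν = H y := by
      rw [integral_const_mul, hν, integral_exp_neg_Ioi_zero, mul_one]
    have h4 : (fun x => F₁ (y, x) + F₂ (y, x))
        = fun x => Ψ (y + b * x) * Real.exp (-x) - H y * Real.exp (-x) := by
      funext x
      simp only [F₁, F₂]
      ring
    rw [h4, integral_sub h1 h2, h3]
    rfl
  constructor
  · have := hF.integral_prod_left
    refine this.congr (Filter.Eventually.of_forall (fun y => ?_))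
    exact (hkey y).symm
  · have hsw := integral_integral_swap hF
    calc ∫ y, (T b Ψ y - H y) = ∫ y, ∫ x, (F₁ (y, x) + F₂ (y, x)) ∂ν := by
          exact integral_congr_ae (Filter.Eventually.of_forall hkey)
      _ = ∫ x, (∫ y, (F₁ (y, x) + F₂ (y, x))) ∂ν := hsw
      _ = ∫ x, ((∫ y, (Ψ y - H y)) * Real.exp (-x) + b * (x * Real.exp (-x))) ∂ν := by
          refine integral_congr_ae (Filter.Eventually.of_forall (fun x => ?_))
          have i1 : Integrable (fun y => F₁ (y, x)) :=
            (hint.comp_add_right (b * x)).mul_const (Real.exp (-x))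
          have i2 : Integrable (fun y => F₂ (y, x)) :=
            (T4_shift_integrable (b * x)).mul_const (Real.exp (-x))
          show ∫ y, (F₁ (y, x) + F₂ (y, x)) = _
          rw [integral_add i1 i2]
          simp only [F₁, F₂]
          rw [integral_mul_const, integral_mul_const, T4_shift_integral,
            integral_add_right_eq_self (fun y => Ψ y - H y) (b * x)]
          ring
      _ = (∫ y, (Ψ y - H y)) + b := by
          rw [integral_add (hexp.const_mul _) (hxexp.const_mul _), integral_const_mul,
            integral_const_mul, hν, integral_exp_neg_Ioi_zero, T4_integral_id_mul_exp]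
          ring

end

end Crest.Agent.S0423
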