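import Crest.Agent.S0423_Defs

set_option autoImplicit false
open MeasureTheory Set Real Filter Topology

namespace Crest.Agent.S0423

lemma T6_poly_ineq (u : ℝ) (h0 : 0 ≤ u) (h1 : u ≤ 4 / 3) :
    11 / 3 + u / 3 - u ^ 2 ≤ 17 / 25 * ((7 / 3 - u) ^ 2 * (1 + u + u ^ 2 / 2 + u ^ 3 / 6)) := by
  have h2 : 0 ≤ 4 / 3 - u := by linarith
  nlinarith [mul_nonneg h0 h2, mul_nonneg (mul_nonneg h0 h2) h0,
    mul_nonneg (mul_nonneg h0 h2) h2,
    mul_nonneg (mul_nonneg h0 h0) (mul_nonneg h2 h2),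
    mul_nonneg (mul_nonneg (mul_nonneg h0 h0) h0) h2,
    mul_nonneg (mul_nonneg (mul_nonneg h0 h0) h0) (mul_nonneg h2 h2),
    mul_nonneg (mul_nonneg (mul_nonneg h0 h0) (mul_nonneg h0 h0)) h2,
    pow_nonneg h0 3, pow_nonneg h0 4, pow_nonneg h0 5]

lemma T6_exp_neg_third_le : exp (-(1 / 3 : ℝ)) ≤ 18 / 25 := by
  have h := Real.quadratic_le_exp_of_nonneg (x := (1 / 3 : ℝ)) (by norm_num)
  rw [exp_neg]
  have h2 : (25 / 18 : ℝ) ≤ exp (1 / 3) := by linarith
  calc (exp (1 / 3))⁻¹ ≤ (25 / 18 : ℝ)⁻¹ := inv_anti₀ (by norm_num) h2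
    _ = 18 / 25 := by norm_num

lemma T6_cubic_le_exp (u : ℝ) (h0 : 0 ≤ u) : 1 + u + u ^ 2 / 2 + u ^ 3 / 6 ≤ exp u := by
  have h := Real.sum_le_exp_of_nonneg h0 4
  simp only [Finset.sum_range_succ, Finset.sum_range_zero, Nat.factorial] at h
  norm_num at h
  linarith

lemma T6_tendsto_affine_mul_exp_neg (k A B : ℝ) (hk : 0 < k) :
    Tendsto (fun x : ℝ => exp (-(k * x)) * (A + B * x)) atTop (𝓝 0) := by
  have h1 : Tendsto (fun x : ℝ => k * x) atTop atTop := tendsto_id.const_mul_atTop hk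
  have h0 : Tendsto (fun x : ℝ => exp (-(k * x))) atTop (𝓝 0) :=
    Real.tendsto_exp_neg_atTop_nhds_zero.comp h1
  have h2 : Tendsto (fun x : ℝ => (k * x) ^ 1 * exp (-(k * x))) atTop (𝓝 0) :=
    (Real.tendsto_pow_mul_exp_neg_atTop_nhds_zero 1).comp h1
  have h3 : Tendsto (fun x : ℝ => A * exp (-(k * x)) + (B / k) * ((k * x) ^ 1 * exp (-(k * x))))
      atTop (𝓝 (A * 0 + (B / k) * 0)) := (h0.const_mul A).add (h2.const_mul (B / k))
  simp only [mul_zero, add_zero] at h3
  refine h3.congr (fun x => ?_)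
  field_simp

lemma T6_tail (s u : ℝ) (hs : 0 < s) (hu : 0 ≤ u) :
    IntegrableOn (fun x => x * exp (-(s * x))) (Ioi u) ∧
    ∫ x in Ioi u, x * exp (-(s * x)) = exp (-(s * u)) * (u / s + 1 / s ^ 2) := by
  set Hf : ℝ → ℝ := fun x => -(exp (-(s * x)) * (x / s + 1 / s ^ 2)) with hH
  have hderiv : ∀ x ∈ Ici u, HasDerivAt Hf (x * exp (-(s * x))) x := by
    intro x _
    have e1 : HasDerivAt (fun x : ℝ => -(s * x)) (-s) x := by
      have h := ((hasDerivAt_id x).const_mul s).fun_neg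
      simp only [mul_one, id] at h
      exact h
    have e2 : HasDerivAt (fun x : ℝ => exp (-(s * x))) (exp (-(s * x)) * (-s)) x := e1.exp
    have e3 : HasDerivAt (fun x : ℝ => x / s + 1 / s ^ 2) (1 / s) x := by
      have h := ((hasDerivAt_id x).div_const s).add_const (1 / s ^ 2)
      simp only [id] at h
      exact h
    have e4 := (e2.fun_mul e3).fun_neg
    refine e4.congr_deriv ?_
    field_simp
    ring
  have hpos : ∀ x ∈ Ioi u, 0 ≤ x * exp (-(s * x)) := by
    intro x hx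
    have hx' : u < x := hx
    have : 0 ≤ x := by linarith
    positivity
  have hlim : Tendsto Hf atTop (𝓝 0) := by
    have := (T6_tendsto_affine_mul_exp_neg s (1 / s ^ 2) (1 / s) hs).neg
    simp only [neg_zero] at this
    refine this.congr (fun x => ?_)
    simp only [hH]
    field_simp
    ring
  refine ⟨integrableOn_Ioi_deriv_of_nonneg' hderiv hpos hlim, ?_⟩
  rw [integral_Ioi_of_hasDerivAt_of_nonneg' hderiv hpos hlim]
  simp [hH]

/-- the integrand -/
private noncomputable def T6F (A κ : ℝ) (x : ℝ) : ℝ :=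
  min 1 (A * exp (κ * (4 / 3 + -1 * x))) * (x * exp (-x))

lemma T6_F_integrable (A κ : ℝ) (hA : 0 ≤ A) : IntegrableOn (T6F A κ) (Ioi 0) := by
  have h1 := (T6_tail 1 0 one_pos le_rfl).1
  refine Integrable.mono' h1 ?_ ?_
  · have : Continuous (T6F A κ) := by unfold T6F; fun_prop
    exact this.aestronglyMeasurable
  · refine (ae_restrict_iff' measurableSet_Ioi).mpr (Filter.Eventually.of_forall fun x hx => ?_)
    have hx' : (0 : ℝ) < x := hx
    have hm0 : 0 ≤ min 1 (A * exp (κ * (4 / 3 + -1 * x))) := le_min zero_le_one (by positivity)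
    have hm1 : min 1 (A * exp (κ * (4 / 3 + -1 * x))) ≤ 1 := min_le_left _ _
    have hw : 0 ≤ x * exp (-x) := by positivity
    rw [Real.norm_eq_abs, T6F, abs_of_nonneg (mul_nonneg hm0 hw), one_mul]
    nlinarith

lemma T6_case1 (κ : ℝ) (hκ : 0 < κ) :
    4 / 9 * exp (-(1 / 3)) ≤ exp (κ * (4 / 3) - 1) * (1 / (1 + κ) ^ 2) := by
  set q : ℝ := (2 * κ - 1) / 3 with hq
  have hq1 : 1 + q = 2 / 3 * (1 + κ) := by rw [hq]; ring
  have hq0 : 0 < 1 + q := by rw [hq1]; positivity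
  have hexp : 1 + q ≤ exp q := by linarith [add_one_le_exp q]
  have hsplit : exp (κ * (4 / 3) - 1) = exp (-(1 / 3)) * (exp q * exp q) := by
    rw [← exp_add, ← exp_add]; congr 1; rw [hq]; ring
  have hsq : (1 + q) * (1 + q) ≤ exp q * exp q :=
    mul_le_mul hexp hexp hq0.le (exp_pos q).le
  have hid : (1 + q) * (1 + q) * (1 / (1 + κ) ^ 2) = 4 / 9 := by
    rw [hq1]; field_simp; ring
  have hpos : 0 ≤ 1 / (1 + κ) ^ 2 := by positivity
  rw [hsplit, ← hid]
  have := mul_le_mul_of_nonneg_right hsq hpos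
  have h3 := mul_le_mul_of_nonneg_left this (exp_pos (-(1 / 3 : ℝ))).le
  linarith

lemma T6_base (κ : ℝ) (hκ : 0 < κ) :
    4 / 9 * exp (-(1 / 3)) ≤ ∫ x in Ioi (0 : ℝ), T6F (exp (-1)) κ x := by
  have hk : 0 < 1 + κ := by linarith
  have hcomb : ∀ x : ℝ, exp (-1) * exp (κ * (4 / 3 + -1 * x)) = exp (κ * (4 / 3) - 1 - κ * x) := by
    intro x; rw [← exp_add]; congr 1; ring
  rcases le_or_gt (κ * (4 / 3)) 1 with hc | hc
  · -- the min is always the exponential
    have hcongr : ∀ x ∈ Ioi (0 : ℝ),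
        exp (κ * (4 / 3) - 1) * (x * exp (-((1 + κ) * x))) = T6F (exp (-1)) κ x := by
      intro x hx
      have hx' : (0 : ℝ) < x := hx
      have hle : exp (κ * (4 / 3) - 1 - κ * x) ≤ 1 := by
        rw [exp_le_one_iff]; nlinarith
      rw [T6F, hcomb, min_eq_right hle]
      have : exp (κ * (4 / 3) - 1 - κ * x) * (x * exp (-x))
          = x * (exp (κ * (4 / 3) - 1 - κ * x) * exp (-x)) := by ring
      rw [this, ← exp_add]
      have : exp (κ * (4 / 3) - 1) * (x * exp (-((1 + κ) * x)))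
          = x * (exp (κ * (4 / 3) - 1) * exp (-((1 + κ) * x))) := by ring
      rw [this, ← exp_add]
      congr 2; ring
    rw [← setIntegral_congr_fun measurableSet_Ioi hcongr, integral_const_mul,
      (T6_tail (1 + κ) 0 hk le_rfl).2]
    simp only [mul_zero, neg_zero, exp_zero, zero_div, zero_add, one_mul]
    exact T6_case1 κ hκ
  · set u : ℝ := 4 / 3 - 1 / κ with hu
    have hu0 : 0 < u := by
      rw [hu, sub_pos, div_lt_iff₀ hκ]; linarith
    have hu1 : u ≤ 4 / 3 := by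
      rw [hu]; have : 0 < 1 / κ := by positivity
      linarith
    have hκu : κ * (4 / 3) - 1 = κ * u := by rw [hu]; field_simp
    have hFint := T6_F_integrable (exp (-1)) κ (exp_pos _).le
    have hFint2 : IntegrableOn (T6F (exp (-1)) κ) (Ioi u) :=
      hFint.mono_set (Ioi_subset_Ioi hu0.le)
    rw [← intervalIntegral.integral_interval_add_Ioi hFint hFint2]
    -- first piece
    have hc1 : ∀ x ∈ Ioc 0 u, x * exp (-(1 * x)) = T6F (exp (-1)) κ x := by
      intro x hx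
      have hge : 1 ≤ exp (κ * (4 / 3) - 1 - κ * x) := by
        rw [one_le_exp_iff, hκu]; nlinarith [hx.2]
      rw [T6F, hcomb, min_eq_left hge, one_mul, one_mul]
    have e1 : ∫ x in (0 : ℝ)..u, T6F (exp (-1)) κ x = 1 - exp (-u) * (u + 1) := by
      rw [intervalIntegral.integral_of_le hu0.le,
        ← setIntegral_congr_fun measurableSet_Ioc hc1,
        ← intervalIntegral.integral_of_le hu0.le,
        ← intervalIntegral.integral_Ioi_sub_Ioi (T6_tail 1 0 one_pos le_rfl).1 hu0.le,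
        (T6_tail 1 0 one_pos le_rfl).2, (T6_tail 1 u one_pos hu0.le).2]
      simp
    have hc2 : ∀ x ∈ Ioi u,
        exp (κ * u) * (x * exp (-((1 + κ) * x))) = T6F (exp (-1)) κ x := by
      intro x hx
      have hx' : u < x := hx
      have hle : exp (κ * (4 / 3) - 1 - κ * x) ≤ 1 := by
        rw [exp_le_one_iff, hκu]; nlinarith
      rw [T6F, hcomb, min_eq_right hle, hκu]
      have : exp (κ * u - κ * x) * (x * exp (-x))
          = x * (exp (κ * u - κ * x) * exp (-x)) := by ring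
      rw [this, ← exp_add]
      have : exp (κ * u) * (x * exp (-((1 + κ) * x)))
          = x * (exp (κ * u) * exp (-((1 + κ) * x))) := by ring
      rw [this, ← exp_add]
      congr 2; ring
    have e2 : ∫ x in Ioi u, T6F (exp (-1)) κ x
        = exp (-u) * (u / (1 + κ) + 1 / (1 + κ) ^ 2) := by
      rw [← setIntegral_congr_fun measurableSet_Ioi hc2, integral_const_mul,
        (T6_tail (1 + κ) u hk hu0.le).2, ← mul_assoc, ← exp_add]
      congr 2; ring
    rw [e1, e2]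
    -- numeric part
    have hθ : 1 / κ = 4 / 3 - u := by rw [hu]; ring
    have hθpos : 0 < 4 / 3 - u := by rw [← hθ]; positivity
    have hκe : κ = 1 / (4 / 3 - u) := by rw [← hθ]; field_simp
    have hE := T6_cubic_le_exp u hu0.le
    have hD : 0 < 1 + u + u ^ 2 / 2 + u ^ 3 / 6 := by positivity
    have hexp : exp (-u) ≤ (1 + u + u ^ 2 / 2 + u ^ 3 / 6)⁻¹ := by
      rw [exp_neg]; exact inv_anti₀ hD hE
    have hid : (u + 1) - (u / (1 + κ) + 1 / (1 + κ) ^ 2)
        = (11 / 3 + u / 3 - u ^ 2) / (7 / 3 - u) ^ 2 := by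
      have h73 : 7 / 3 - u = (1 + κ) / κ := by rw [hu]; field_simp; ring
      rw [h73, hu]
      field_simp
      ring
    have hB : 0 ≤ (11 / 3 + u / 3 - u ^ 2) / (7 / 3 - u) ^ 2 := by
      apply div_nonneg _ (by positivity)
      nlinarith
    have hfrac : (11 / 3 + u / 3 - u ^ 2) / (7 / 3 - u) ^ 2
        ≤ 17 / 25 * (1 + u + u ^ 2 / 2 + u ^ 3 / 6) := by
      have h73 : 0 < 7 / 3 - u := by linarith
      rw [div_le_iff₀ (by positivity)]
      have := T6_poly_ineq u hu0.le hu1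
      linarith
    have h3 := T6_exp_neg_third_le
    have hfin : exp (-u) * ((11 / 3 + u / 3 - u ^ 2) / (7 / 3 - u) ^ 2) ≤ 17 / 25 := by
      calc exp (-u) * ((11 / 3 + u / 3 - u ^ 2) / (7 / 3 - u) ^ 2)
          ≤ (1 + u + u ^ 2 / 2 + u ^ 3 / 6)⁻¹ * (17 / 25 * (1 + u + u ^ 2 / 2 + u ^ 3 / 6)) :=
            mul_le_mul hexp hfrac hB (by positivity)
        _ = 17 / 25 := by field_simp
    have : 1 - exp (-u) * (u + 1) + exp (-u) * (u / (1 + κ) + 1 / (1 + κ) ^ 2)
        = 1 - exp (-u) * ((u + 1) - (u / (1 + κ) + 1 / (1 + κ) ^ 2)) := by ring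
    rw [this, hid]
    linarith

theorem Gam_E_ge {A κ : ℝ} (hA : Real.exp (-1) ≤ A) (hκ : 0 < κ) :
    4 / 9 * Real.exp (-(1 / 3)) ≤ Gam (E A κ) (4 / 3) := by
  have hA0 : 0 ≤ A := le_trans (exp_pos _).le hA
  have h1 : Gam (E A κ) (4 / 3) = ∫ x in Ioi (0 : ℝ), T6F A κ x := rfl
  rw [h1]
  refine le_trans (T6_base κ hκ) ?_
  refine setIntegral_mono_on (T6_F_integrable _ κ (exp_pos _).le) (T6_F_integrable A κ hA0)
    measurableSet_Ioi (fun x hx => ?_)
  have hx' : (0 : ℝ) < x := hx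
  have hw : 0 ≤ x * exp (-x) := by positivity
  unfold T6F
  refine mul_le_mul_of_nonneg_right ?_ hw
  exact min_le_min le_rfl (mul_le_mul_of_nonneg_right hA (exp_pos _).le)

end Crest.Agent.S0423
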