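import Crest.Agent.S0423_P7c
import Crest.Agent.S0423_P6

set_option autoImplicit false

namespace Crest.Agent.S0423

open MeasureTheory Set

noncomputable section

variable {Ψ : ℝ → ℝ} {m : ℝ}

/-- slope of the chord at level `ρ` -/
def kf (Ψ : ℝ → ℝ) (c ρ : ℝ) : ℝ :=
  (Real.log (Ψ (c - ta ρ)) - Real.log (Ψ (c - (ta ρ + ρ)))) / ρ

/-- `1 +` value at `0` of the chord at level `ρ` -/
def Df (Ψ : ℝ → ℝ) (c ρ : ℝ) : ℝ :=
  1 + (Real.log (Ψ (c - (ta ρ + ρ))) - kf Ψ c ρ * (c - (ta ρ + ρ)))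

theorem LC.kf_nonneg (h : LC Ψ m) (c : ℝ) {ρ : ℝ} (hρ : 0 < ρ) : 0 ≤ kf Ψ c ρ := by
  unfold kf
  apply div_nonneg _ hρ.le
  have := h.log_mono (show c - (ta ρ + ρ) ≤ c - ta ρ by linarith)
  simp only at this
  linarith

theorem LC.continuous_log (h : LC Ψ m) : Continuous (fun y => Real.log (Ψ y)) := by
  rw [← continuousOn_univ]
  exact h.conc.continuousOn isOpen_univ

theorem continuousOn_ta : ContinuousOn ta (Ioi 0) := by
  unfold ta
  apply ContinuousOn.div continuousOn_id (by fun_prop)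
  intro ρ hρ
  exact (exp_sub_one_pos hρ).ne'

theorem LC.continuousOn_Df (h : LC Ψ m) (c : ℝ) : ContinuousOn (Df Ψ c) (Ioi 0) := by
  have hL := h.continuous_log
  have h1 : ContinuousOn (fun ρ => Real.log (Ψ (c - ta ρ))) (Ioi 0) :=
    hL.comp_continuousOn (continuousOn_const.sub continuousOn_ta)
  have h2 : ContinuousOn (fun ρ => Real.log (Ψ (c - (ta ρ + ρ)))) (Ioi 0) :=
    hL.comp_continuousOn (continuousOn_const.sub (continuousOn_ta.add continuousOn_id))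
  have h3 : ContinuousOn (kf Ψ c) (Ioi 0) := by
    unfold kf
    exact (h1.sub h2).div continuousOn_id (fun ρ hρ => (ne_of_gt hρ))
  unfold Df
  exact continuousOn_const.add
    (h2.sub (h3.mul (continuousOn_const.sub (continuousOn_ta.add continuousOn_id))))

theorem LC.of_Df_zero (h : LC Ψ 0) {ρ : ℝ} (hρ : 0 < ρ) (hD : Df Ψ (4/3) ρ = 0) :
    4/9 * Real.exp (-(1/3)) ≤ Gam Ψ (4/3) := by
  have hk0 := h.kf_nonneg (4/3) hρ
  have hk : 0 < kf Ψ (4/3) ρ := by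
    rcases hk0.eq_or_lt with h0 | h0
    · exfalso
      have h1 : Real.log (Ψ (4/3 - (ta ρ + ρ))) = Real.log (Ψ (4/3 - ta ρ)) := by
        have h2 : kf Ψ (4/3) ρ = 0 := h0.symm
        unfold kf at h2
        rw [div_eq_zero_iff] at h2
        rcases h2 with h2 | h2
        · linarith
        · linarith
      have h3 := h.flat (by linarith) h1
      unfold Df at hD
      rw [← h0, h1, h3] at hD
      simp at hD
    · exact h0
  have hc := h.compare (4/3) hρ (κ := kf Ψ (4/3) ρ) rfl hk rfl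
  rw [Real.log_exp] at hc
  have h1 : 1 + (Real.log (Ψ (4/3 - (ta ρ + ρ))) - kf Ψ (4/3) ρ * (4/3 - (ta ρ + ρ))) = 0 := hD
  rw [h1] at hc
  have h2 : Real.log (Ψ (4/3 - (ta ρ + ρ))) - kf Ψ (4/3) ρ * (4/3 - (ta ρ + ρ)) = -1 := by linarith
  rw [h2] at hc
  have h3 := Gam_E_ge (A := Real.exp (-1)) (κ := kf Ψ (4/3) ρ) le_rfl hk
  simp only [zero_div, mul_zero, sub_zero] at hc
  linarith

theorem ta_le {ρ : ℝ} (hρ : 0 < ρ) : ta ρ ≤ 6 / ρ ^ 2 := by
  unfold ta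
  rw [div_le_div_iff₀ (exp_sub_one_pos hρ) (by positivity)]
  have := Real.sum_le_exp_of_nonneg hρ.le 4
  simp [Finset.sum_range_succ, Nat.factorial] at this
  nlinarith [sq_nonneg ρ]

theorem LC.of_Df_pos (h : LC Ψ 0) {ρ : ℝ} (hρ : 7/3 ≤ ρ) (hD : 0 < Df Ψ (4/3) ρ) :
    4/9 * Real.exp (-(1/3)) - 6 / (ρ * (Real.log (Ψ 0) - Real.log (Ψ (-1)))) ≤ Gam Ψ (4/3) := by
  have hρ0 : 0 < ρ := by linarith
  have hη : 0 < Real.log (Ψ 0) - Real.log (Ψ (-1)) := by linarith [h.strict]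
  set η := Real.log (Ψ 0) - Real.log (Ψ (-1)) with hηdef
  have hta0 := ta_pos hρ0
  have hta1 := ta_le_one hρ0
  have hy1 : 4/3 - (ta ρ + ρ) ≤ -1 := by linarith
  have hy2 : 0 ≤ 4/3 - ta ρ := by linarith
  have hkη : η / ρ ≤ kf Ψ (4/3) ρ := by
    unfold kf
    apply div_le_div_of_nonneg_right _ hρ0.le
    have h1 := h.log_mono hy1
    have h2 := h.log_mono hy2
    simp only at h1 h2
    linarith
  have hk : 0 < kf Ψ (4/3) ρ := lt_of_lt_of_le (by positivity) hkη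
  have hD1 : Df Ψ (4/3) ρ ≤ 1 := by
    have h1 := chord_le h.conc (y1 := 4/3 - (ta ρ + ρ)) (y2 := 4/3 - ta ρ) (y := 0) (mem_univ _)
      (mem_univ _) (by linarith) (by linarith) hy2
    have h2 : (4/3 - ta ρ) - (4/3 - (ta ρ + ρ)) = ρ := by ring
    rw [h2] at h1
    have h3 := h.log_nonpos 0
    unfold Df kf
    linarith
  have hc := h.compare (4/3) hρ0 (κ := kf Ψ (4/3) ρ) rfl hk rfl
  rw [Real.log_exp] at hc
  have h1 : 1 + (Real.log (Ψ (4/3 - (ta ρ + ρ))) - kf Ψ (4/3) ρ * (4/3 - (ta ρ + ρ)))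
      = Df Ψ (4/3) ρ := rfl
  rw [h1] at hc
  have h3 := Gam_E_ge
    (A := Real.exp (Real.log (Ψ (4/3 - (ta ρ + ρ))) - kf Ψ (4/3) ρ * (4/3 - (ta ρ + ρ))))
    (κ := kf Ψ (4/3) ρ) (Real.exp_le_exp.2 (by unfold Df at hD; linarith)) hk
  have hμ : wG (ta ρ) ≤ 6 / ρ ^ 2 := by
    unfold wG
    have : Real.exp (-ta ρ) ≤ 1 := Real.exp_le_one_iff.2 (by linarith)
    calc ta ρ * Real.exp (-ta ρ) ≤ ta ρ * 1 := by gcongr
      _ ≤ 6 / ρ ^ 2 := by rw [mul_one]; exact ta_le hρ0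
  have hμ0 : 0 ≤ wG (ta ρ) := by unfold wG; positivity
  have h4 : wG (ta ρ) * (Df Ψ (4/3) ρ / kf Ψ (4/3) ρ) ≤ 6 / (ρ * η) := by
    have h5 : Df Ψ (4/3) ρ / kf Ψ (4/3) ρ ≤ ρ / η := by
      calc Df Ψ (4/3) ρ / kf Ψ (4/3) ρ ≤ 1 / kf Ψ (4/3) ρ := by gcongr
        _ ≤ 1 / (η / ρ) := by gcongr
        _ = ρ / η := by rw [one_div_div]
    calc wG (ta ρ) * (Df Ψ (4/3) ρ / kf Ψ (4/3) ρ) ≤ (6 / ρ ^ 2) * (ρ / η) := by
          apply mul_le_mul hμ h5 (div_nonneg hD.le hk.le) (by positivity)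
      _ = 6 / (ρ * η) := by field_simp
  linarith

theorem LC.Df_half (h : LC Ψ 0) : 0 ≤ Df Ψ (4/3) (1/2) := by
  have hρ : (0:ℝ) < 1/2 := by norm_num
  have hta : ta (1/2) < 5/6 := by
    unfold ta
    rw [div_lt_iff₀ (exp_sub_one_pos hρ)]
    have := Real.quadratic_le_exp_of_nonneg hρ.le
    nlinarith
  have h1 := le_chord_left h.conc (y1 := 4/3 - (ta (1/2) + 1/2)) (y2 := 4/3 - ta (1/2)) (y := 0)
    (mem_univ _) (mem_univ _) (by linarith) (by linarith)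
  have h2 : (4/3 - ta (1/2)) - (4/3 - (ta (1/2) + 1/2)) = 1/2 := by ring
  rw [h2] at h1
  have h3 := h.grunbaum
  unfold Df kf
  linarith

theorem main_ineq (h : LC Ψ 0) : 4/9 * Real.exp (-(1/3)) ≤ Gam Ψ (4/3) := by
  by_cases hex : ∃ ρ, 1/2 ≤ ρ ∧ Df Ψ (4/3) ρ ≤ 0
  · obtain ⟨ρ, hρ, hD⟩ := hex
    have hcont : ContinuousOn (Df Ψ (4/3)) (Icc (1/2) ρ) :=
      (h.continuousOn_Df (4/3)).mono (fun x hx => lt_of_lt_of_le (by norm_num) hx.1)
    have := intermediate_value_Icc' hρ hcont ⟨hD, h.Df_half⟩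
    obtain ⟨r, hr, hr0⟩ := this
    exact h.of_Df_zero (lt_of_lt_of_le (by norm_num) hr.1) hr0
  · push Not at hex
    by_contra hlt
    push Not at hlt
    have hη : 0 < Real.log (Ψ 0) - Real.log (Ψ (-1)) := by linarith [h.strict]
    set η := Real.log (Ψ 0) - Real.log (Ψ (-1)) with hηdef
    set ε := 4/9 * Real.exp (-(1/3)) - Gam Ψ (4/3) with hε
    have hε0 : 0 < ε := by linarith
    set ρ := max (7/3) (6 / (η * ε) + 1) with hρdef
    have hρ1 : 7/3 ≤ ρ := le_max_left _ _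
    have hρ2 : 6 / (η * ε) < ρ := lt_of_lt_of_le (by linarith) (le_max_right _ _)
    have h1 := h.of_Df_pos hρ1 (hex ρ (by linarith))
    have h2 : 6 / (ρ * η) < ε := by
      have hρ0 : 0 < ρ := by linarith
      rw [div_lt_iff₀ (by positivity)] at hρ2 ⊢
      nlinarith
    linarith

end

end Crest.Agent.S0423
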