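import Crest.Agent.S0423_P1
import Crest.Agent.S0423_P3
import Crest.Agent.S0423_P4
import Crest.Agent.S0423_P7d

set_option autoImplicit false

namespace Crest.Agent.S0423

open MeasureTheory Set

noncomputable section

theorem M01.T {φ : ℝ → ℝ} (hφ : M01 φ) (a : ℝ) : M01 (T a φ) := M01.K pw_wE hφ a

theorem m01_G : M01 G := Gam_H ▸ M01.K pw_wG m01_H (-1)

theorem LC.T {Ψ : ℝ → ℝ} {m : ℝ} (h : LC Ψ m) (b : ℝ) : LC (T b Ψ) (m + b) := by
  have h1 := h.m01.T b
  have h2 := T_mean h.m01 h.integrable b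
  exact ⟨h1.mono, T_pos h.m01 h.pos b, h1.le_one, T_conc h.pos h.le_one h.conc b, h2.1,
    by rw [h2.2, h.mean]⟩

theorem IN_succ (n : ℕ) (a : Fin (n+1) → ℝ) {φ : ℝ → ℝ} (hφ : M01 φ) (y : ℝ) :
    IN (n+1) a φ y = IN n (fun j => a j.succ) (T (a 0) φ) y := by
  simpa using IN_succAbove n a 0 hφ y

theorem IN_mono (n : ℕ) : ∀ (a : Fin n → ℝ) {φ φ' : ℝ → ℝ} (_ : M01 φ) (_ : M01 φ')
    (_ : ∀ y, φ y ≤ φ' y) (y : ℝ), IN n a φ y ≤ IN n a φ' y := by
  induction n with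
  | zero => intro a φ φ' _ _ h y; simpa [IN_zero] using h y
  | succ n ih =>
    intro a φ φ' hφ hφ' h y
    rw [IN_succ n a hφ, IN_succ n a hφ']
    exact ih _ (hφ.T _) (hφ'.T _) (fun z => K_mono pw_wE hφ hφ' h _ z) y

theorem IN_K_comm {w : ℝ → ℝ} (hw : PW w) (b : ℝ) (n : ℕ) : ∀ (a : Fin n → ℝ) {φ : ℝ → ℝ} (_ : M01 φ),
    IN n a (K w b φ) = K w b (IN n a φ) := by
  induction n with
  | zero =>
    intro a φ _
    have h1 : IN 0 a φ = φ := funext fun y => IN_zero a φ y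
    funext y
    rw [IN_zero, h1]
  | succ n ih =>
    intro a φ hφ
    have h1 : IN (n+1) a φ = IN n (fun j => a j.succ) (T (a 0) φ) := funext fun y => IN_succ n a hφ y
    funext y
    rw [IN_succ n a (hφ.K hw b), h1, ← ih _ (hφ.T _)]
    unfold T
    rw [K_comm pw_wE hw hφ]

theorem IN_LC (n : ℕ) : ∀ (a : Fin n → ℝ) {Ψ : ℝ → ℝ} {m : ℝ} (_ : LC Ψ m),
    LC (IN n a Ψ) (m + ∑ i, a i) := by
  induction n with
  | zero =>
    intro a Ψ m h
    have h1 : IN 0 a Ψ = Ψ := funext fun y => IN_zero a Ψ y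
    rw [h1]; simpa using h
  | succ n ih =>
    intro a Ψ m h
    have h1 : IN (n+1) a Ψ = IN n (fun j => a j.succ) (T (a 0) Ψ) :=
      funext fun y => IN_succ n a h.m01 y
    rw [h1, Fin.sum_univ_succ, ← add_assoc]
    exact ih _ (h.T (a 0))

theorem IN_one (n : ℕ) : ∀ (a : Fin n → ℝ) (y : ℝ), IN n a (fun _ => (1:ℝ)) y = 1 := by
  induction n with
  | zero => intro a y; rw [IN_zero]
  | succ n ih =>
    intro a y
    rw [IN_succ n a m01_one]
    unfold T
    rw [K_one pw_wE]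
    exact ih _ y

theorem IN_const_zero (n : ℕ) : ∀ {φ : ℝ → ℝ} (_ : M01 φ) (y : ℝ), IN n (fun _ => 0) φ y = φ y := by
  induction n with
  | zero => intro φ _ y; rw [IN_zero]
  | succ n ih =>
    intro φ hφ y
    rw [IN_succ n _ hφ]
    unfold T
    rw [K_zero pw_wE]
    exact ih hφ y

/-- the integral in the statement in terms of `IN … G`. -/
theorem stmt_integral (n : ℕ) (a : Fin n → ℝ) (y : ℝ) :
    ∫ x in Set.pi Set.univ (fun _ : Fin n => Set.Ioi (0 : ℝ)),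
      Crest.AlgGeometry.truncExpWeight (y + ∑ i, a i * x i) * Real.exp (-∑ i, x i)
      = 1 - IN n a G y := by
  have h1 := IN_integrable n a m01_one y
  have h2 := IN_integrable n a m01_G y
  have h3 : IN n a (fun _ => (1:ℝ)) y - IN n a G y = _ := (integral_sub h1 h2).symm
  rw [IN_one] at h3
  rw [h3]
  congr 1
  funext x
  simp only [G]
  ring

theorem upper_aux (N : ℕ) (a : Fin N → ℝ) (hN : 1 ≤ N) (ha : ∑ i, a i = 0) :
    4/9 * Real.exp (-(1/3)) ≤ IN N a G (4/3) := by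
  obtain ⟨n, rfl⟩ : ∃ n, N = n + 1 := ⟨N - 1, by omega⟩
  by_cases h0 : ∀ i, a i ≤ 0
  · -- all zero
    have hz : ∀ i, a i = 0 := by
      intro i
      have := (Finset.sum_eq_zero_iff_of_nonpos (fun i _ => h0 i)).1 ha i (Finset.mem_univ i)
      exact this
    have : a = fun _ => 0 := funext hz
    rw [this, IN_const_zero _ m01_G]
    have h1 : G (4/3) = 1 - (1 + 4/3) * Real.exp (-(4/3)) := by
      unfold G Crest.AlgGeometry.truncExpWeight
      rw [if_neg (by norm_num)]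
    have h2 : Real.exp (-(1/3 : ℝ)) ≤ 18 / 25 := T6_exp_neg_third_le
    have h3 : Real.exp (-(4/3 : ℝ)) = Real.exp (-(1/3 : ℝ)) ^ 4 := by
      rw [← Real.exp_nat_mul]; congr 1; norm_num
    have h4 : Real.exp (-(1/3 : ℝ)) ^ 4 ≤ (18 / 25) ^ 4 :=
      pow_le_pow_left₀ (Real.exp_pos _).le h2 4
    rw [h1, h3]
    norm_num at h4 ⊢
    linarith
  · push Not at h0
    obtain ⟨i, hi⟩ := h0
    rw [IN_succAbove n a i m01_G, ← Gam_H]
    have e1 : T (a i) (Gam H) = Gam (T (a i) H) := by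
      unfold T Gam
      rw [K_comm pw_wE pw_wG m01_H]
    rw [e1]
    unfold Gam
    rw [IN_K_comm pw_wG _ _ _ (m01_H.T _)]
    have hLC : LC (T (a i) H) (a i) := by
      rw [T_H_pos hi]
      have := LC_E (A := 1) (κ := 1 / a i) one_pos (by positivity)
      simpa using this
    have h2 := IN_LC n (fun j => a (i.succAbove j)) hLC
    have h3 : a i + ∑ j, a (i.succAbove j) = 0 := by
      rw [← Fin.sum_univ_succAbove]; exact ha
    rw [h3] at h2
    exact main_ineq h2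

theorem IN_const_E_le (n : ℕ) {κ b : ℝ} (hκ : 0 ≤ κ) (hb : b ≤ 0) : ∀ {A : ℝ} (_ : 0 ≤ A) (y : ℝ),
    IN n (fun _ => b) (E A κ) y ≤ E (A / (1 - κ * b) ^ n) κ y := by
  have hpos : 0 < 1 - κ * b := by nlinarith
  induction n with
  | zero => intro A _ y; rw [IN_zero]; simp
  | succ n ih =>
    intro A hA y
    rw [IN_succ n _ (m01_E hA hκ)]
    have hA' : 0 ≤ A / (1 - κ * b) := by positivity
    refine (IN_mono n _ ((m01_E hA hκ).T _) (m01_E hA' hκ) (fun z => T_E_le hA hκ hb z) y).trans ?_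
    refine (ih hA' y).trans (le_of_eq ?_)
    congr 1
    rw [pow_succ]
    field_simp

theorem lower_aux (n : ℕ) (hn : 1 ≤ n) :
    IN (n+1) (Fin.cons 2 (fun _ => -2 / (n:ℝ))) G (4/3)
      ≤ 4/9 * Real.exp (2/3) / (1 + 1 / (n:ℝ)) ^ n := by
  rw [IN_succ n _ m01_G]
  simp only [Fin.cons_zero, Fin.cons_succ]
  have hn' : (0:ℝ) < n := by exact_mod_cast hn
  have hb : -2 / (n:ℝ) ≤ 0 := by
    apply div_nonpos_of_nonpos_of_nonneg <;> [norm_num; positivity]
  refine (IN_mono n _ (m01_G.T _) (m01_E (by norm_num) (by norm_num)) T2G_le _).trans ?_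
  refine (IN_const_E_le n (by norm_num) hb (by norm_num) _).trans ?_
  unfold E
  refine (min_le_right _ _).trans (le_of_eq ?_)
  have : (1:ℝ) - 1/2 * (-2 / (n:ℝ)) = 1 + 1 / (n:ℝ) := by ring
  rw [this]
  have : (1:ℝ)/2 * (4/3) = 2/3 := by norm_num
  rw [this]
  ring

end

end Crest.Agent.S0423
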