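import Crest.Statements.S0423
import Crest.Agent.S0423_Asm

set_option autoImplicit false
open Crest Crest.AlgGeometry

namespace Crest.Agent.S0423

/-- For independent mean-one exponential random variables `X_1, …, X_N` (written as an integral over the positive orthant against the density `exp (-(x_1 + ⋯ + x_N))`), real coefficients `a_1, …, a_N` summing to zero, and the weight `g = truncExpWeight`, the quantity `(e^{4/3} / (4/3)) · E[g(4/3 + a_1 X_1 + ⋯ + a_N X_N)]` has supremum over all `N ≥ 1` and all such `a` exactly `(3/4) e^{4/3} − e/3`: it never exceeds this value, and comes within any `ε > 0` of it for some `N` and `a`. -/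
theorem result :
    (∀ (N : ℕ) (a : Fin N → ℝ), 1 ≤ N → ∑ i, a i = 0 →
      Real.exp (4 / 3) / (4 / 3) *
          ∫ x in Set.pi Set.univ (fun _ : Fin N => Set.Ioi (0 : ℝ)),
            Crest.AlgGeometry.truncExpWeight (4 / 3 + ∑ i, a i * x i) * Real.exp (-∑ i, x i)
        ≤ 3 / 4 * Real.exp (4 / 3) - Real.exp 1 / 3) ∧
    (∀ ε : ℝ, 0 < ε → ∃ (N : ℕ) (a : Fin N → ℝ), 1 ≤ N ∧ ∑ i, a i = 0 ∧
      3 / 4 * Real.exp (4 / 3) - Real.exp 1 / 3 - ε <
        Real.exp (4 / 3) / (4 / 3) *
          ∫ x in Set.pi Set.univ (fun _ : Fin N => Set.Ioi (0 : ℝ)),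
            Crest.AlgGeometry.truncExpWeight (4 / 3 + ∑ i, a i * x i) * Real.exp (-∑ i, x i)) := by
  have hconst : Real.exp (4 / 3) / (4 / 3) * (1 - 4/9 * Real.exp (-(1/3)))
      = 3 / 4 * Real.exp (4 / 3) - Real.exp 1 / 3 := by
    have h1 : Real.exp (4/3) * Real.exp (-(1/3)) = Real.exp 1 := by
      rw [← Real.exp_add]; congr 1; norm_num
    have h2 : Real.exp (4 / 3) / (4 / 3) * (1 - 4/9 * Real.exp (-(1/3)))
        = 3/4 * Real.exp (4/3) - 1/3 * (Real.exp (4/3) * Real.exp (-(1/3))) := by ring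
    rw [h2, h1]; ring
  have hpos : 0 < Real.exp (4 / 3) / (4 / 3) := by positivity
  constructor
  · intro N a hN ha
    rw [stmt_integral, ← hconst]
    have := upper_aux N a hN ha
    apply mul_le_mul_of_nonneg_left _ hpos.le
    linarith
  · intro ε hε
    -- choose n
    have hlim : Filter.Tendsto (fun n : ℕ => 4/9 * Real.exp (2/3) / (1 + 1 / (n:ℝ)) ^ n)
        Filter.atTop (nhds (4/9 * Real.exp (2/3) / Real.exp 1)) := by
      have h1 := Real.tendsto_one_add_div_pow_exp 1
      exact tendsto_const_nhds.div h1 (Real.exp_pos 1).ne'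
    have hval : 4/9 * Real.exp (2/3) / Real.exp 1 = 4/9 * Real.exp (-(1/3)) := by
      rw [mul_div_assoc, ← Real.exp_sub]; congr 2; norm_num
    rw [hval] at hlim
    set ε' := ε / (Real.exp (4 / 3) / (4 / 3)) with hε'
    have hε'pos : 0 < ε' := div_pos hε hpos
    have hev := hlim.eventually (gt_mem_nhds (show 4/9 * Real.exp (-(1/3)) <
      4/9 * Real.exp (-(1/3)) + ε' by linarith))
    obtain ⟨n, hn1, hn2⟩ := (hev.and (Filter.eventually_ge_atTop 1)).exists
    refine ⟨n + 1, Fin.cons 2 (fun _ => -2 / (n:ℝ)), by omega, ?_, ?_⟩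
    · rw [Fin.sum_univ_succ]
      simp only [Fin.cons_zero, Fin.cons_succ, Finset.sum_const, Finset.card_univ, Fintype.card_fin,
        nsmul_eq_mul]
      have : (n:ℝ) ≠ 0 := by
        have : (1:ℝ) ≤ n := by exact_mod_cast hn2
        linarith
      field_simp
      ring
    · rw [stmt_integral, ← hconst]
      have h1 := lower_aux n hn2
      have h2 : IN (n+1) (Fin.cons 2 (fun _ => -2 / (n:ℝ))) G (4/3)
          < 4/9 * Real.exp (-(1/3)) + ε' := lt_of_le_of_lt h1 hn1
      have h3 : ε = Real.exp (4 / 3) / (4 / 3) * ε' := by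
        rw [hε']; field_simp
      rw [h3, ← mul_sub]
      apply mul_lt_mul_of_pos_left _ hpos
      linarith

end Crest.Agent.S0423
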