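import Mathlib
import Crest.Prelude.Def_TruncExpWeight

set_option autoImplicit false
open MeasureTheory Set Real Filter Topology

namespace Crest.Agent.S0423

open Crest.AlgGeometry

lemma tew_of_nonpos {z : ℝ} (h : z ≤ 0) : truncExpWeight z = 1 := by
  simp [truncExpWeight, h]

lemma tew_of_pos {z : ℝ} (h : 0 < z) : truncExpWeight z = (1 + z) * exp (-z) := by
  simp [truncExpWeight, not_le.mpr h]

lemma tendsto_affine_mul_exp_neg (k A B : ℝ) (hk : 0 < k) :
    Tendsto (fun x : ℝ => exp (-(k * x)) * (A + B * x)) atTop (𝓝 0) := by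
  have h1 : Tendsto (fun x : ℝ => k * x) atTop atTop := tendsto_id.const_mul_atTop hk
  have h0 : Tendsto (fun x : ℝ => exp (-(k * x))) atTop (𝓝 0) :=
    Real.tendsto_exp_neg_atTop_nhds_zero.comp h1
  have h2 : Tendsto (fun x : ℝ => (k * x) ^ 1 * exp (-(k * x))) atTop (𝓝 0) :=
    (Real.tendsto_pow_mul_exp_neg_atTop_nhds_zero 1).comp h1
  have h3 : Tendsto (fun x : ℝ => A * exp (-(k * x)) + (B / k) * ((k * x) ^ 1 * exp (-(k * x))))
      atTop (𝓝 (A * 0 + (B / k) * 0)) := (h0.const_mul A).add (h2.const_mul (B / k))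
  simp only [mul_zero, add_zero] at h3
  refine h3.congr (fun x => ?_)
  field_simp

/-- tail integral -/
lemma tail_integral (θ y x₁ : ℝ) (hθ : 0 < θ) (h1 : 0 ≤ y + θ * x₁) :
    IntegrableOn (fun x => (1 + (y + θ * x)) * exp (-(y + θ * x)) * exp (-x)) (Ioi x₁) ∧
    ∫ x in Ioi x₁, (1 + (y + θ * x)) * exp (-(y + θ * x)) * exp (-x)
      = exp (-(y + (1 + θ) * x₁)) * ((1 + y + θ * x₁) / (1 + θ) + θ / (1 + θ) ^ 2) := by
  have hk : 0 < 1 + θ := by linarith
  set H : ℝ → ℝ := fun x =>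
    -(exp (-(y + (1 + θ) * x)) * ((1 + y + θ * x) / (1 + θ) + θ / (1 + θ) ^ 2)) with hH
  have hderiv : ∀ x ∈ Ici x₁,
      HasDerivAt H ((1 + (y + θ * x)) * exp (-(y + θ * x)) * exp (-x)) x := by
    intro x _
    have e1 : HasDerivAt (fun x : ℝ => -(y + (1 + θ) * x)) (-(1 + θ)) x := by
      have h := (((hasDerivAt_id x).const_mul (1 + θ)).const_add y).fun_neg
      simp only [mul_one, id] at h
      exact h
    have e2 : HasDerivAt (fun x : ℝ => exp (-(y + (1 + θ) * x)))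
        (exp (-(y + (1 + θ) * x)) * (-(1 + θ))) x := e1.exp
    have e3 : HasDerivAt (fun x : ℝ => (1 + y + θ * x) / (1 + θ) + θ / (1 + θ) ^ 2)
        (θ / (1 + θ)) x := by
      have h := ((((hasDerivAt_id x).const_mul θ).const_add (1 + y)).div_const (1 + θ)).add_const
        (θ / (1 + θ) ^ 2)
      simp only [mul_one, id] at h
      exact h
    have e4 := (e2.fun_mul e3).fun_neg
    have hexp : exp (-(y + θ * x)) * exp (-x) = exp (-(y + (1 + θ) * x)) := by
      rw [← exp_add]; congr 1; ring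
    refine e4.congr_deriv ?_
    rw [mul_assoc (1 + (y + θ * x)), hexp]
    field_simp
    ring
  have hpos : ∀ x ∈ Ioi x₁, 0 ≤ (1 + (y + θ * x)) * exp (-(y + θ * x)) * exp (-x) := by
    intro x hx
    have hx' : x₁ < x := hx
    have : 0 ≤ y + θ * x := by nlinarith
    positivity
  have hlim : Tendsto H atTop (𝓝 0) := by
    have := (tendsto_affine_mul_exp_neg (1 + θ) ((1 + y) / (1 + θ) + θ / (1 + θ) ^ 2)
      (θ / (1 + θ)) hk).const_mul (-exp (-y))
    simp only [mul_zero] at this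
    refine this.congr (fun x => ?_)
    simp only [hH]
    have : exp (-(y + (1 + θ) * x)) = exp (-y) * exp (-((1 + θ) * x)) := by
      rw [← exp_add]; congr 1; ring
    rw [this]
    field_simp
    ring
  refine ⟨integrableOn_Ioi_deriv_of_nonneg' hderiv hpos hlim, ?_⟩
  rw [integral_Ioi_of_hasDerivAt_of_nonneg' hderiv hpos hlim]
  simp [hH]

/-- value of the comparison integral, regime `θ ≤ 4/3`. -/
lemma v_small (θ : ℝ) (h0 : 0 < θ) (h : θ ≤ 4 / 3) :
    ∫ x in Ioi (0 : ℝ), truncExpWeight (4 / 3 - θ + θ * x) * exp (-x)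
      = exp (-(4 / 3 - θ)) * ((1 + (4 / 3 - θ)) / (1 + θ) + θ / (1 + θ) ^ 2) := by
  have h2 := (tail_integral θ (4 / 3 - θ) 0 h0 (by linarith)).2
  simp only [mul_zero, add_zero] at h2
  rw [← h2]
  refine setIntegral_congr_fun measurableSet_Ioi (fun x hx => ?_)
  have hx' : (0 : ℝ) < x := hx
  have : 0 < 4 / 3 - θ + θ * x := by
    have : 0 < θ * x := mul_pos h0 hx'
    linarith
  simp only [tew_of_pos this]

/-- value of the comparison integral, regime `4/3 ≤ θ`. -/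
lemma v_large (θ : ℝ) (h : 4 / 3 ≤ θ) :
    ∫ x in Ioi (0 : ℝ), truncExpWeight (4 / 3 - θ + θ * x) * exp (-x)
      = 1 - exp (-(1 - 4 / (3 * θ))) * (θ ^ 2 / (1 + θ) ^ 2) := by
  have h0 : 0 < θ := by linarith
  set x₀ : ℝ := 1 - 4 / (3 * θ) with hx₀
  have hx₀0 : 0 ≤ x₀ := by
    rw [hx₀, sub_nonneg, div_le_one (by positivity)]; linarith
  have hy : 4 / 3 - θ + θ * x₀ = 0 := by
    rw [hx₀]; field_simp; ring
  obtain ⟨hint, hval⟩ := tail_integral θ (4 / 3 - θ) x₀ h0 (by rw [hy])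
  set f : ℝ → ℝ := fun x => truncExpWeight (4 / 3 - θ + θ * x) * exp (-x) with hf
  have hcongr : ∀ x ∈ Ioi x₀,
      (1 + (4 / 3 - θ + θ * x)) * exp (-(4 / 3 - θ + θ * x)) * exp (-x) = f x := by
    intro x hx
    have hx' : x₀ < x := hx
    have : 0 < 4 / 3 - θ + θ * x := by nlinarith
    simp only [hf, tew_of_pos this]
  have hfint : IntegrableOn f (Ioi x₀) := hint.congr_fun hcongr measurableSet_Ioi
  have hcongr2 : ∀ x ∈ Ioc 0 x₀, exp (-x) = f x := by
    intro x hx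
    have : 4 / 3 - θ + θ * x ≤ 0 := by nlinarith [hx.2]
    simp only [hf, tew_of_nonpos this, one_mul]
  have hfint2 : IntervalIntegrable f volume 0 x₀ := by
    rw [intervalIntegrable_iff_integrableOn_Ioc_of_le hx₀0]
    exact ((by fun_prop : Continuous fun x : ℝ => exp (-x)).integrableOn_Ioc).congr_fun hcongr2
      measurableSet_Ioc
  rw [← intervalIntegral.integral_interval_add_Ioi' hfint2 hfint]
  have e1 : ∫ x in (0 : ℝ)..x₀, f x = 1 - exp (-x₀) := by
    rw [intervalIntegral.integral_of_le hx₀0,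
      ← setIntegral_congr_fun measurableSet_Ioc hcongr2,
      ← intervalIntegral.integral_of_le hx₀0]
    simp
  have e2 : ∫ x in Ioi x₀, f x
      = exp (-x₀) * (1 / (1 + θ) + θ / (1 + θ) ^ 2) := by
    rw [← setIntegral_congr_fun measurableSet_Ioi hcongr, hval]
    have a1 : 4 / 3 - θ + (1 + θ) * x₀ = x₀ := by linarith
    have a2 : 1 + (4 / 3 - θ) + θ * x₀ = 1 := by linarith
    rw [a1, a2]
  rw [e1, e2]
  have hk : (1 + θ) ≠ 0 := by positivity
  field_simp
  ring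

lemma exp_neg_third_le : exp (-(1 / 3 : ℝ)) ≤ 18 / 25 := by
  have h := Real.quadratic_le_exp_of_nonneg (x := (1 / 3 : ℝ)) (by norm_num)
  rw [exp_neg]
  have h2 : (25 / 18 : ℝ) ≤ exp (1 / 3) := by linarith
  calc (exp (1 / 3))⁻¹ ≤ (25 / 18 : ℝ)⁻¹ := inv_anti₀ (by norm_num) h2
    _ = 18 / 25 := by norm_num

lemma poly_ineq (x : ℝ) (h0 : 0 ≤ x) (h1 : x ≤ 1) :
    11 / 3 + x / 3 - x ^ 2 ≤ 17 / 25 * ((7 / 3 - x) ^ 2 * (1 + x + x ^ 2 / 2)) := by
  nlinarith [mul_nonneg h0 (sub_nonneg.mpr h1), mul_nonneg (mul_nonneg h0 (sub_nonneg.mpr h1)) h0,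
    mul_nonneg (mul_nonneg h0 (sub_nonneg.mpr h1)) (sub_nonneg.mpr h1),
    mul_nonneg (mul_nonneg h0 h0) (mul_nonneg (sub_nonneg.mpr h1) (sub_nonneg.mpr h1)),
    sq_nonneg x, sq_nonneg (x - 1), sq_nonneg (x ^ 2)]

/-- The comparison value is at most the claimed supremum. -/
theorem v_le (θ : ℝ) (h : 1 / 3 ≤ θ) :
    ∫ x in Ioi (0 : ℝ), truncExpWeight (4 / 3 - θ + θ * x) * exp (-x)
      ≤ 1 - 4 / 9 * exp (-(1 / 3)) := by
  have h0 : 0 < θ := by linarith
  rcases le_total (4 / 3) θ with h1 | h1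
  · rw [v_large θ h1]
    set q : ℝ := 2 / (3 * θ) - 1 / 3 with hq
    have hq1 : 1 + q = 2 * (1 + θ) / (3 * θ) := by rw [hq]; field_simp; ring
    have hq0 : 0 < 1 + q := by rw [hq1]; positivity
    have hexp : 1 + q ≤ exp q := by linarith [add_one_le_exp q]
    have hsplit : exp (-(1 - 4 / (3 * θ))) = exp (-(1 / 3)) * (exp q * exp q) := by
      rw [← exp_add, ← exp_add]; congr 1; rw [hq]; field_simp; ring
    have hsq : (1 + q) * (1 + q) ≤ exp q * exp q :=
      mul_le_mul hexp hexp hq0.le (exp_pos q).le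
    have hid : (1 + q) * (1 + q) * (θ ^ 2 / (1 + θ) ^ 2) = 4 / 9 := by
      rw [hq1]; field_simp; ring
    have hpos : 0 ≤ θ ^ 2 / (1 + θ) ^ 2 := by positivity
    have hmain : 4 / 9 * exp (-(1 / 3)) ≤ exp (-(1 - 4 / (3 * θ))) * (θ ^ 2 / (1 + θ) ^ 2) := by
      rw [hsplit, ← hid]
      have := mul_le_mul_of_nonneg_right hsq hpos
      have h3 := mul_le_mul_of_nonneg_left this (exp_pos (-(1 / 3 : ℝ))).le
      linarith
    linarith
  · rw [v_small θ h0 h1]
    set x : ℝ := 4 / 3 - θ with hx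
    have hx0 : 0 ≤ x := by rw [hx]; linarith
    have hx1 : x ≤ 1 := by rw [hx]; linarith
    have hθ : θ = 4 / 3 - x := by rw [hx]; ring
    have hE := Real.quadratic_le_exp_of_nonneg hx0
    have hD : 0 < 1 + x + x ^ 2 / 2 := by positivity
    have hexp : exp (-x) ≤ (1 + x + x ^ 2 / 2)⁻¹ := by
      rw [exp_neg]; exact inv_anti₀ hD hE
    have hB : 0 ≤ (1 + x) / (1 + θ) + θ / (1 + θ) ^ 2 := by positivity
    have hk : 0 < 1 + θ := by linarith
    have hfrac : (1 + x) / (1 + θ) + θ / (1 + θ) ^ 2 ≤ 17 / 25 * (1 + x + x ^ 2 / 2) := by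
      have hp := poly_ineq x hx0 hx1
      have e : (1 + x) / (1 + θ) + θ / (1 + θ) ^ 2 = (11 / 3 + x / 3 - x ^ 2) / (1 + θ) ^ 2 := by
        rw [hθ]; field_simp; ring
      rw [e, div_le_iff₀ (by positivity)]
      have e2 : (1 + θ) = 7 / 3 - x := by rw [hθ]; ring
      rw [e2]; linarith
    have h3 := exp_neg_third_le
    calc exp (-x) * ((1 + x) / (1 + θ) + θ / (1 + θ) ^ 2)
        ≤ (1 + x + x ^ 2 / 2)⁻¹ * (17 / 25 * (1 + x + x ^ 2 / 2)) :=
          mul_le_mul hexp hfrac hB (by positivity)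
      _ = 17 / 25 := by field_simp
      _ ≤ 1 - 4 / 9 * exp (-(1 / 3)) := by linarith

/-- IVT: the pivot parameter. -/
theorem exists_theta (k : ℝ) (hk : 1 / 3 ≤ k) :
    ∃ θ : ℝ, 1 / 3 ≤ θ ∧ θ * exp (1 / (3 * θ) - 1) = k := by
  set f : ℝ → ℝ := fun θ => θ * exp (1 / (3 * θ) - 1) with hf
  set M : ℝ := exp 1 * k with hM
  have he : (1 : ℝ) ≤ exp 1 := by
    have := add_one_le_exp (1 : ℝ); linarith
  have hkM : k ≤ M := by
    rw [hM]; nlinarith
  have hM3 : 1 / 3 ≤ M := le_trans hk hkM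
  have hcont : ContinuousOn f (Icc (1 / 3) M) := by
    intro θ hθ
    have hθ0 : (3 * θ) ≠ 0 := by
      have : 0 < θ := by linarith [hθ.1]
      positivity
    have : ContinuousAt f θ := by
      simp only [hf]
      fun_prop (disch := assumption)
    exact this.continuousWithinAt
  have h1 : f (1 / 3) = 1 / 3 := by
    simp only [hf]; norm_num
  have h2 : k ≤ f M := by
    simp only [hf]
    have hMpos : 0 < M := by linarith
    have : exp (-1) ≤ exp (1 / (3 * M) - 1) := by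
      apply exp_le_exp.mpr
      have : 0 ≤ 1 / (3 * M) := by positivity
      linarith
    calc k = M * exp (-1) := by
          rw [hM, mul_comm (exp 1) k, mul_assoc, ← exp_add]; simp
      _ ≤ M * exp (1 / (3 * M) - 1) := mul_le_mul_of_nonneg_left this hMpos.le
  have hmem : k ∈ Icc (f (1 / 3)) (f M) := ⟨by rw [h1]; exact hk, h2⟩
  obtain ⟨θ, hθ, hθk⟩ := intermediate_value_Icc hM3 hcont hmem
  exact ⟨θ, hθ.1, hθk⟩

/-- final arithmetic. -/
theorem final_arith :
    exp (4 / 3) / (4 / 3) * (1 - 4 / 9 * exp (-(1 / 3))) = 3 / 4 * exp (4 / 3) - exp 1 / 3 := by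
  have : exp (4 / 3 : ℝ) * exp (-(1 / 3)) = exp 1 := by
    rw [← exp_add]; norm_num
  have h2 : exp (4 / 3) / (4 / 3) * (1 - 4 / 9 * exp (-(1 / 3)))
      = 3 / 4 * exp (4 / 3) - 1 / 3 * (exp (4 / 3 : ℝ) * exp (-(1 / 3))) := by ring
  rw [h2, this]; ring

end Crest.Agent.S0423
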