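import Mathlib
import Crest.Prelude.Def_TruncExpWeight

/-!
Definitions shared by the helper files for statement S0423.
-/

set_option autoImplicit false

namespace Crest.Agent.S0423

open MeasureTheory Set

noncomputable section

/-- Heaviside function `1_{(0,∞)}`. -/
def H (y : ℝ) : ℝ := if 0 < y then 1 else 0

/-- `G = 1 - truncExpWeight`, the distribution function of a Gamma(2) variable. -/
def G (y : ℝ) : ℝ := 1 - Crest.AlgGeometry.truncExpWeight y

/-- Averaging operator with weight `w` on `(0,∞)` and scale `a`. -/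
def K (w : ℝ → ℝ) (a : ℝ) (φ : ℝ → ℝ) (y : ℝ) : ℝ :=
  ∫ x in Ioi (0 : ℝ), φ (y + a * x) * w x

/-- exponential density -/
def wE (x : ℝ) : ℝ := Real.exp (-x)

/-- Gamma(2) density -/
def wG (x : ℝ) : ℝ := x * Real.exp (-x)

/-- `T a φ y = E φ (y + a X)`, `X ~ Exp(1)`. -/
def T (a : ℝ) (φ : ℝ → ℝ) : ℝ → ℝ := K wE a φ

/-- `Gam φ y = E φ (y - Γ₂)`. -/
def Gam (φ : ℝ → ℝ) : ℝ → ℝ := K wG (-1) φ

/-- The `n`-dimensional integral of the statement, with a general profile `φ` and base point `y`. -/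
def IN (n : ℕ) (a : Fin n → ℝ) (φ : ℝ → ℝ) (y : ℝ) : ℝ :=
  ∫ x in Set.pi Set.univ (fun _ : Fin n => Set.Ioi (0 : ℝ)),
    φ (y + ∑ i, a i * x i) * Real.exp (-∑ i, x i)

/-- truncated exponential profile -/
def E (A κ : ℝ) (y : ℝ) : ℝ := min 1 (A * Real.exp (κ * y))

/-- probability weights on `(0,∞)` -/
structure PW (w : ℝ → ℝ) : Prop where
  meas : Measurable w
  nonneg : ∀ x, 0 < x → 0 ≤ w x
  integrable : IntegrableOn w (Ioi 0)
  integral_one : ∫ x in Ioi (0 : ℝ), w x = 1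

/-- monotone functions with values in `[0,1]` -/
structure M01 (φ : ℝ → ℝ) : Prop where
  mono : Monotone φ
  nonneg : ∀ y, 0 ≤ φ y
  le_one : ∀ y, φ y ≤ 1

/-- positive monotone log-concave "distribution functions" with mean `m`. -/
structure LC (Ψ : ℝ → ℝ) (m : ℝ) : Prop where
  mono : Monotone Ψ
  pos : ∀ y, 0 < Ψ y
  le_one : ∀ y, Ψ y ≤ 1
  conc : ConcaveOn ℝ Set.univ (fun y => Real.log (Ψ y))
  integrable : Integrable (fun y => Ψ y - H y)
  mean : ∫ y, (Ψ y - H y) = m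

theorem LC.m01 {Ψ : ℝ → ℝ} {m : ℝ} (h : LC Ψ m) : M01 Ψ :=
  ⟨h.mono, fun y => (h.pos y).le, h.le_one⟩

end

end Crest.Agent.S0423
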