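import Crest.Agent.S0423_Defs

/-!
Task T1 for S0423: reduction of the `n`-dimensional integral to iterated one-dimensional ones.

General versions (`IN_integrable_of_bdd`, `IN_succAbove_of_bdd`) hold for every bounded measurable
profile `φ`; the `M01` versions are special cases.
-/

set_option autoImplicit false

namespace Crest.Agent.S0423

open MeasureTheory Set

noncomputable section

/-- the restricted Lebesgue measure on the positive half line -/
def T1_μ : Measure ℝ := (volume : Measure ℝ).restrict (Ioi (0 : ℝ))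

instance T1_sf : SigmaFinite T1_μ := by unfold T1_μ; infer_instance

theorem T1_restrict (n : ℕ) :
    (volume : Measure (Fin n → ℝ)).restrict (Set.pi Set.univ (fun _ : Fin n => Set.Ioi (0 : ℝ)))
      = Measure.pi (fun _ : Fin n => T1_μ) := by
  rw [volume_pi, Measure.restrict_pi_pi]
  rfl

theorem T1_exp_integrable : Integrable (fun x : ℝ => Real.exp (-x)) T1_μ := by
  have := integrableOn_exp_neg_Ioi 0
  exact this

theorem T1_exp_sum (n : ℕ) (x : Fin n → ℝ) :
    Real.exp (-∑ i, x i) = ∏ i, Real.exp (-(x i)) := by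
  rw [← Real.exp_sum, Finset.sum_neg_distrib]

theorem T1_exp_pi_integrable (n : ℕ) :
    Integrable (fun x : Fin n → ℝ => Real.exp (-∑ i, x i)) (Measure.pi (fun _ : Fin n => T1_μ)) := by
  simp_rw [T1_exp_sum]
  exact Integrable.fintype_prod (f := fun _ x => Real.exp (-x)) (fun _ => T1_exp_integrable)

theorem IN_zero (a : Fin 0 → ℝ) (φ : ℝ → ℝ) (y : ℝ) : IN 0 a φ y = φ y := by
  unfold IN
  rw [T1_restrict, Measure.pi_of_empty (fun _ : Fin 0 => T1_μ) 0, integral_dirac]
  simp

theorem T1_meas (n : ℕ) (a : Fin n → ℝ) {φ : ℝ → ℝ} (hφ : Measurable φ) (y : ℝ) :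
    Measurable (fun x : Fin n → ℝ => φ (y + ∑ i, a i * x i)) := by
  apply hφ.comp
  fun_prop

theorem T1_integrable (n : ℕ) (a : Fin n → ℝ) {φ : ℝ → ℝ} (hφ : Measurable φ) {C : ℝ}
    (hC : ∀ z, |φ z| ≤ C) (y : ℝ) :
    Integrable (fun x : Fin n → ℝ => φ (y + ∑ i, a i * x i) * Real.exp (-∑ i, x i))
      (Measure.pi (fun _ : Fin n => T1_μ)) := by
  refine (T1_exp_pi_integrable n).bdd_mul (c := C) (T1_meas n a hφ y).aestronglyMeasurable ?_
  exact Filter.Eventually.of_forall fun x => by rw [Real.norm_eq_abs]; exact hC _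

/-- integrability of the `n`-dimensional integrand, bounded measurable profile. -/
theorem IN_integrable_of_bdd (n : ℕ) (a : Fin n → ℝ) {φ : ℝ → ℝ} (hφ : Measurable φ) {C : ℝ}
    (hC : ∀ z, |φ z| ≤ C) (y : ℝ) :
    IntegrableOn (fun x : Fin n → ℝ => φ (y + ∑ i, a i * x i) * Real.exp (-∑ i, x i))
      (Set.pi Set.univ (fun _ : Fin n => Set.Ioi (0 : ℝ))) := by
  unfold IntegrableOn
  rw [T1_restrict]
  exact T1_integrable n a hφ hC y

/-- peeling off the `i`-th coordinate, bounded measurable profile. -/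
theorem IN_succAbove_of_bdd (n : ℕ) (a : Fin (n+1) → ℝ) (i : Fin (n+1)) {φ : ℝ → ℝ}
    (hφ : Measurable φ) {C : ℝ} (hC : ∀ z, |φ z| ≤ C) (y : ℝ) :
    IN (n+1) a φ y = IN n (fun j => a (i.succAbove j)) (T (a i) φ) y := by
  unfold IN
  rw [T1_restrict, T1_restrict]
  have mp := (measurePreserving_piFinSuccAbove (fun _ : Fin (n+1) => T1_μ) i).symm
  have hint := T1_integrable (n+1) a hφ hC y
  rw [← mp.integrable_comp_emb (MeasurableEquiv.measurableEmbedding _)] at hint
  rw [← mp.integral_comp']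
  have key : ∀ p : ℝ × (Fin n → ℝ),
      φ (y + ∑ j, a j * ((MeasurableEquiv.piFinSuccAbove (fun _ => ℝ) i).symm p) j) *
        Real.exp (-∑ j, ((MeasurableEquiv.piFinSuccAbove (fun _ => ℝ) i).symm p) j)
      = (φ ((y + ∑ j, a (i.succAbove j) * p.2 j) + a i * p.1) * Real.exp (-p.1)) *
        Real.exp (-∑ j, p.2 j) := by
    intro p
    simp only [MeasurableEquiv.piFinSuccAbove_symm_apply, Fin.insertNthEquiv_apply,
      Fin.sum_univ_succAbove _ i, Fin.insertNth_apply_same, Fin.insertNth_apply_succAbove]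
    rw [neg_add, Real.exp_add]
    have : y + (a i * p.1 + ∑ j, a (i.succAbove j) * p.2 j)
        = y + ∑ j, a (i.succAbove j) * p.2 j + a i * p.1 := by ring
    rw [this]
    ring
  have hint' : Integrable (fun p : ℝ × (Fin n → ℝ) =>
      (φ ((y + ∑ j, a (i.succAbove j) * p.2 j) + a i * p.1) * Real.exp (-p.1)) *
        Real.exp (-∑ j, p.2 j)) (T1_μ.prod (Measure.pi fun _ : Fin n => T1_μ)) := by
    refine hint.congr (Filter.Eventually.of_forall fun p => ?_)
    exact key p
  simp_rw [key]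
  rw [integral_prod_symm _ hint']
  refine integral_congr_ae (Filter.Eventually.of_forall fun x => ?_)
  simp only
  rw [integral_mul_const]
  rfl

theorem T1_M01_abs {φ : ℝ → ℝ} (hφ : M01 φ) (z : ℝ) : |φ z| ≤ 1 := by
  rw [abs_of_nonneg (hφ.nonneg _)]
  exact hφ.le_one _

theorem IN_integrable (n : ℕ) (a : Fin n → ℝ) {φ : ℝ → ℝ} (hφ : M01 φ) (y : ℝ) :
    IntegrableOn (fun x : Fin n → ℝ => φ (y + ∑ i, a i * x i) * Real.exp (-∑ i, x i))
      (Set.pi Set.univ (fun _ : Fin n => Set.Ioi (0 : ℝ))) :=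
  IN_integrable_of_bdd n a hφ.mono.measurable (T1_M01_abs hφ) y

theorem IN_succAbove (n : ℕ) (a : Fin (n+1) → ℝ) (i : Fin (n+1)) {φ : ℝ → ℝ} (hφ : M01 φ)
    (y : ℝ) :
    IN (n+1) a φ y = IN n (fun j => a (i.succAbove j)) (T (a i) φ) y :=
  IN_succAbove_of_bdd n a i hφ.mono.measurable (T1_M01_abs hφ) y

end

end Crest.Agent.S0423
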