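import Crest.Agent.S0423_Defs

/-!
Task T2 for S0423: basic facts on the averaging operators `K w a`.
-/

set_option autoImplicit false

namespace Crest.Agent.S0423

open MeasureTheory Set

theorem pw_wE : PW wE := by
  refine ⟨?_, ?_, ?_, ?_⟩
  · unfold wE; fun_prop
  · intro x _; exact (Real.exp_pos _).le
  · exact integrableOn_exp_neg_Ioi 0
  · exact integral_exp_neg_Ioi_zero

theorem pw_wG : PW wG := by
  have hcongr : ∀ x ∈ Ioi (0:ℝ), Real.exp (-x) * x ^ ((2:ℝ) - 1) = wG x := by
    intro x _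
    have : ((2:ℝ) - 1) = 1 := by norm_num
    rw [this, Real.rpow_one]; unfold wG; ring
  refine ⟨?_, ?_, ?_, ?_⟩
  · unfold wG; fun_prop
  · intro x hx; exact mul_nonneg hx.le (Real.exp_pos _).le
  · exact (Real.GammaIntegral_convergent (s := 2) (by norm_num)).congr_fun hcongr measurableSet_Ioi
  · rw [← setIntegral_congr_fun measurableSet_Ioi hcongr, ← Real.Gamma_eq_integral (by norm_num)]
    exact Real.Gamma_two

theorem m01_H : M01 H := by
  refine ⟨?_, ?_, ?_⟩
  · intro x y hxy
    unfold H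
    by_cases hx : 0 < x
    · have hy : 0 < y := lt_of_lt_of_le hx hxy
      simp [hx, hy]
    · by_cases hy : 0 < y <;> simp [hx, hy]
  · intro y; unfold H; split_ifs <;> norm_num
  · intro y; unfold H; split_ifs <;> norm_num

theorem m01_E {A κ : ℝ} (hA : 0 ≤ A) (hκ : 0 ≤ κ) : M01 (E A κ) := by
  refine ⟨?_, ?_, ?_⟩
  · intro x y hxy
    unfold E
    apply min_le_min le_rfl
    apply mul_le_mul_of_nonneg_left _ hA
    exact Real.exp_le_exp.2 (mul_le_mul_of_nonneg_left hxy hκ)
  · intro y; unfold E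
    exact le_min zero_le_one (mul_nonneg hA (Real.exp_pos _).le)
  · intro y; unfold E; exact min_le_left _ _

theorem m01_one : M01 (fun _ => (1:ℝ)) :=
  ⟨monotone_const, fun _ => zero_le_one, fun _ => le_rfl⟩

theorem T2_meas {φ : ℝ → ℝ} (hφ : M01 φ) : Measurable φ := hφ.mono.measurable

theorem K_integrable {w : ℝ → ℝ} (hw : PW w) {φ : ℝ → ℝ} (hφ : M01 φ) (a y : ℝ) :
    IntegrableOn (fun x => φ (y + a * x) * w x) (Set.Ioi 0) := by
  have hm : Measurable (fun x => φ (y + a * x)) := (T2_meas hφ).comp (by fun_prop)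
  refine Integrable.bdd_mul (c := 1) hw.integrable hm.aestronglyMeasurable ?_
  filter_upwards with x
  rw [Real.norm_eq_abs, abs_of_nonneg (hφ.nonneg _)]
  exact hφ.le_one _

theorem M01.K {w : ℝ → ℝ} (hw : PW w) {φ : ℝ → ℝ} (hφ : M01 φ) (a : ℝ) : M01 (K w a φ) := by
  refine ⟨?_, ?_, ?_⟩
  · intro y y' hyy'
    unfold Crest.Agent.S0423.K
    refine setIntegral_mono_on (K_integrable hw hφ a y) (K_integrable hw hφ a y') measurableSet_Ioi ?_
    intro x hx
    exact mul_le_mul_of_nonneg_right (hφ.mono (by linarith)) (hw.nonneg x hx)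
  · intro y
    unfold Crest.Agent.S0423.K
    refine setIntegral_nonneg measurableSet_Ioi ?_
    intro x hx
    exact mul_nonneg (hφ.nonneg _) (hw.nonneg x hx)
  · intro y
    unfold Crest.Agent.S0423.K
    rw [← hw.integral_one]
    refine setIntegral_mono_on (K_integrable hw hφ a y) hw.integrable measurableSet_Ioi ?_
    intro x hx
    calc φ (y + a * x) * w x ≤ 1 * w x :=
          mul_le_mul_of_nonneg_right (hφ.le_one _) (hw.nonneg x hx)
      _ = w x := one_mul _

theorem K_mono {w : ℝ → ℝ} (hw : PW w) {φ φ' : ℝ → ℝ} (hφ : M01 φ) (hφ' : M01 φ')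
    (h : ∀ y, φ y ≤ φ' y) (a y : ℝ) : K w a φ y ≤ K w a φ' y := by
  unfold K
  refine setIntegral_mono_on (K_integrable hw hφ a y) (K_integrable hw hφ' a y) measurableSet_Ioi ?_
  intro x hx
  exact mul_le_mul_of_nonneg_right (h _) (hw.nonneg x hx)

theorem K_comm {w w' : ℝ → ℝ} (hw : PW w) (hw' : PW w') {φ : ℝ → ℝ} (hφ : M01 φ) (a a' : ℝ) :
    K w a (K w' a' φ) = K w' a' (K w a φ) := by
  funext y
  unfold K
  have h1 : ∀ x : ℝ, (∫ x' in Ioi (0:ℝ), φ (y + a * x + a' * x') * w' x') * w x
      = ∫ x' in Ioi (0:ℝ), φ (y + a * x + a' * x') * w' x' * w x := by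
    intro x; rw [integral_mul_const]
  have h2 : ∀ x' : ℝ, (∫ x in Ioi (0:ℝ), φ (y + a' * x' + a * x) * w x) * w' x'
      = ∫ x in Ioi (0:ℝ), φ (y + a * x + a' * x') * w' x' * w x := by
    intro x'; rw [← integral_mul_const]
    congr 1; funext x
    have : y + a' * x' + a * x = y + a * x + a' * x' := by ring
    rw [this]; ring
  simp_rw [h1, h2]
  refine integral_integral_swap (f := fun x x' => φ (y + a * x + a' * x') * w' x' * w x) ?_
  -- integrability on the product
  have hprod : Integrable (fun p : ℝ × ℝ => w p.1 * w' p.2)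
      ((volume.restrict (Ioi (0:ℝ))).prod (volume.restrict (Ioi (0:ℝ)))) :=
    Integrable.mul_prod (f := w) (g := w') hw.integrable hw'.integrable
  have hm : Measurable (fun p : ℝ × ℝ => φ (y + a * p.1 + a' * p.2)) :=
    (T2_meas hφ).comp (by fun_prop)
  have := Integrable.bdd_mul (c := 1) hprod hm.aestronglyMeasurable (by
    filter_upwards with p
    rw [Real.norm_eq_abs, abs_of_nonneg (hφ.nonneg _)]
    exact hφ.le_one _)
  refine this.congr ?_
  filter_upwards with p
  simp only [Function.uncurry]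
  ring

theorem K_zero {w : ℝ → ℝ} (hw : PW w) (φ : ℝ → ℝ) : K w 0 φ = φ := by
  funext y
  unfold K
  simp only [zero_mul, add_zero]
  rw [integral_const_mul, hw.integral_one, mul_one]

theorem K_one {w : ℝ → ℝ} (hw : PW w) (a : ℝ) : K w a (fun _ => (1:ℝ)) = fun _ => 1 := by
  funext y
  unfold K
  simp only [one_mul]
  exact hw.integral_one

theorem T_pos {Ψ : ℝ → ℝ} (h : M01 Ψ) (hpos : ∀ y, 0 < Ψ y) (b y : ℝ) : 0 < T b Ψ y := by
  unfold T K
  rw [setIntegral_pos_iff_support_of_nonneg_ae]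
  · have hsupp : Function.support (fun x => Ψ (y + b * x) * wE x) = Set.univ := by
      ext x
      simp only [Function.mem_support, Set.mem_univ, iff_true]
      exact (mul_pos (hpos _) (Real.exp_pos _)).ne'
    rw [hsupp, Set.univ_inter]
    simp
  · filter_upwards with x
    exact (mul_pos (hpos _) (Real.exp_pos _)).le
  · exact K_integrable pw_wE h b y

end Crest.Agent.S0423
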