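import Crest.Agent.S0423_Defs

/-!
Task T5 for S0423: explicit facts on the Heaviside function, the truncated exponential profiles
and the Gamma(2) distribution function.
-/

set_option autoImplicit false

namespace Crest.Agent.S0423

open MeasureTheory Set Filter Topology

noncomputable section

theorem T5_G_of_nonpos {y : ℝ} (hy : y ≤ 0) : G y = 0 := by
  simp [G, Crest.AlgGeometry.truncExpWeight, hy]

theorem T5_G_of_pos {y : ℝ} (hy : 0 < y) : G y = 1 - (1 + y) * Real.exp (-y) := by
  simp [G, Crest.AlgGeometry.truncExpWeight, not_le.mpr hy]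

theorem T5_G_nonneg (y : ℝ) : 0 ≤ G y := by
  rcases le_or_gt y 0 with hy | hy
  · rw [T5_G_of_nonpos hy]
  · rw [T5_G_of_pos hy]
    have h1 : 1 + y ≤ Real.exp y := by linarith [Real.add_one_le_exp y]
    have h2 : (1 + y) * Real.exp (-y) ≤ Real.exp y * Real.exp (-y) :=
      mul_le_mul_of_nonneg_right h1 (Real.exp_pos _).le
    rw [← Real.exp_add] at h2
    simp at h2
    linarith

theorem T5_G_le_one (y : ℝ) : G y ≤ 1 := by
  rcases le_or_gt y 0 with hy | hy
  · rw [T5_G_of_nonpos hy]; norm_num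
  · rw [T5_G_of_pos hy]
    have : 0 ≤ (1 + y) * Real.exp (-y) := mul_nonneg (by linarith) (Real.exp_pos _).le
    linarith

theorem T5_H_pos {y : ℝ} (hy : 0 < y) : H y = 1 := if_pos hy

theorem T5_H_nonpos {y : ℝ} (hy : ¬ 0 < y) : H y = 0 := if_neg hy

theorem Gam_H : Gam H = G := by
  funext y
  unfold Gam K
  rcases le_or_gt y 0 with hy | hy
  · rw [T5_G_of_nonpos hy]
    have : ∀ x ∈ Ioi (0:ℝ), H (y + -1 * x) * wG x = 0 := by
      intro x hx
      have hx' : (0:ℝ) < x := hx
      have : ¬ (0 < y + -1 * x) := by linarith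
      rw [T5_H_nonpos this, zero_mul]
    rw [setIntegral_congr_fun measurableSet_Ioi this]
    simp
  · rw [T5_G_of_pos hy]
    have h1 : ∀ x, H (y + -1 * x) * wG x = (Iio y).indicator wG x := by
      intro x
      by_cases hx : x < y
      · have : 0 < y + -1 * x := by linarith
        rw [T5_H_pos this, one_mul, indicator_of_mem (show x ∈ Iio y from hx)]
      · have : ¬ (0 < y + -1 * x) := by linarith
        rw [T5_H_nonpos this, zero_mul, indicator_of_notMem (show x ∉ Iio y from hx)]
    simp_rw [h1]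
    rw [setIntegral_indicator measurableSet_Iio]
    have h2 : Ioi (0:ℝ) ∩ Iio y = Ioo 0 y := by
      ext x; simp [mem_Ioo]
    rw [h2, ← integral_Ioc_eq_integral_Ioo, ← intervalIntegral.integral_of_le hy.le]
    have hder : ∀ x ∈ uIcc 0 y, HasDerivAt (fun x : ℝ => -((1 + x) * Real.exp (-x))) (wG x) x := by
      intro x _
      have h1 : HasDerivAt (fun x : ℝ => 1 + x) 1 x := (hasDerivAt_id x).const_add 1
      have h2 : HasDerivAt (fun x : ℝ => Real.exp (-x)) (Real.exp (-x) * -1) x :=
        (hasDerivAt_id x).neg.exp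
      have h := (h1.mul h2).neg
      have e : wG x = -(1 * Real.exp (-x) + (1 + x) * (Real.exp (-x) * -1)) := by
        unfold wG; ring
      rw [e]
      exact h
    rw [intervalIntegral.integral_eq_sub_of_hasDerivAt hder]
    · simp; ring
    · apply Continuous.intervalIntegrable
      unfold wG
      fun_prop

theorem T_H_pos {a : ℝ} (ha : 0 < a) : T a H = E 1 (1/a) := by
  funext y
  unfold T K E wE
  rcases le_or_gt 0 y with hy | hy
  · have : ∀ x ∈ Ioi (0:ℝ), H (y + a * x) * Real.exp (-x) = Real.exp (-x) := by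
      intro x hx
      have hx' : (0:ℝ) < x := hx
      have : 0 < y + a * x := by positivity
      rw [T5_H_pos this, one_mul]
    rw [setIntegral_congr_fun measurableSet_Ioi this, integral_exp_neg_Ioi_zero]
    have : (1:ℝ) ≤ 1 * Real.exp (1 / a * y) := by
      rw [one_mul]
      apply Real.one_le_exp
      positivity
    rw [min_eq_left this]
  · have h1 : ∀ x, H (y + a * x) * Real.exp (-x) =
        (Ioi (-y / a)).indicator (fun x => Real.exp (-x)) x := by
      intro x
      by_cases hx : -y / a < x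
      · have : 0 < y + a * x := by
          rw [div_lt_iff₀ ha] at hx
          linarith
        rw [T5_H_pos this, one_mul, indicator_of_mem (show x ∈ Ioi (-y / a) from hx)]
      · have : ¬ (0 < y + a * x) := by
          rw [div_lt_iff₀ ha] at hx
          linarith
        rw [T5_H_nonpos this, zero_mul, indicator_of_notMem (show x ∉ Ioi (-y / a) from hx)]
    simp_rw [h1]
    rw [setIntegral_indicator measurableSet_Ioi]
    have hc : 0 < -y / a := div_pos (by linarith) ha
    have h2 : Ioi (0:ℝ) ∩ Ioi (-y / a) = Ioi (-y / a) := by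
      ext x; simp only [mem_inter_iff, mem_Ioi]
      constructor
      · exact fun h => h.2
      · exact fun h => ⟨hc.trans h, h⟩
    rw [h2, integral_exp_neg_Ioi]
    have h3 : -(-y / a) = 1 / a * y := by ring
    rw [h3, one_mul]
    have : Real.exp (1 / a * y) ≤ 1 := by
      rw [Real.exp_le_one_iff]
      have : 1 / a * y = -(-y / a) := by ring
      rw [this]; linarith
    rw [min_eq_right this]

theorem T5_E_sub_H_eq {A κ : ℝ} (hA : 0 < A) (hκ : 0 < κ) :
    (fun y => E A κ y - H y) = fun y =>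
      (Iic (-Real.log A / κ)).indicator (fun y => A * Real.exp (κ * y)) y
      + ((Ioc (-Real.log A / κ) 0).indicator (fun _ => (1:ℝ)) y
        - (Ioc 0 (-Real.log A / κ)).indicator (fun _ => (1:ℝ)) y) := by
  funext y
  have key : A * Real.exp (κ * y) ≤ 1 ↔ y ≤ -Real.log A / κ := by
    rw [le_div_iff₀ hκ]
    constructor
    · intro h
      have := Real.log_le_log (by positivity) h
      rw [Real.log_mul hA.ne' (Real.exp_pos _).ne', Real.log_exp, Real.log_one] at this
      linarith
    · intro h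
      have h2 : Real.log (A * Real.exp (κ * y)) ≤ Real.log 1 := by
        rw [Real.log_mul hA.ne' (Real.exp_pos _).ne', Real.log_exp, Real.log_one]
        linarith
      exact (Real.log_le_log_iff (by positivity) one_pos).mp h2
  unfold E
  by_cases h1 : y ≤ -Real.log A / κ
  · rw [min_eq_right (key.mpr h1), indicator_of_mem (show y ∈ Iic _ from h1)]
    have n1 : y ∉ Ioc (-Real.log A / κ) 0 := fun h => absurd h.1 (not_lt.mpr h1)
    rw [indicator_of_notMem n1]
    by_cases h2 : 0 < y
    · rw [T5_H_pos h2, indicator_of_mem (show y ∈ Ioc 0 _ from ⟨h2, h1⟩)]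
      ring
    · rw [T5_H_nonpos h2, indicator_of_notMem (fun h : y ∈ Ioc 0 _ => h2 h.1)]
      ring
  · have h1' : 1 ≤ A * Real.exp (κ * y) := by
      by_contra hcon
      exact h1 (key.mp (not_le.mp hcon).le)
    rw [min_eq_left h1', indicator_of_notMem (show y ∉ Iic _ from h1)]
    have n1 : y ∉ Ioc 0 (-Real.log A / κ) := fun h => h1 h.2
    rw [indicator_of_notMem n1]
    by_cases h2 : 0 < y
    · rw [T5_H_pos h2, indicator_of_notMem (fun h : y ∈ Ioc _ 0 => absurd h.2 (not_le.mpr h2))]
      ring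
    · rw [T5_H_nonpos h2, indicator_of_mem (show y ∈ Ioc _ 0 from ⟨not_le.mp h1, not_lt.mp h2⟩)]
      ring

theorem T5_int1 {A κ : ℝ} (hκ : 0 < κ) (c : ℝ) :
    Integrable ((Iic c).indicator (fun y => A * Real.exp (κ * y))) := by
  rw [integrable_indicator_iff measurableSet_Iic]
  exact (integrableOn_exp_mul_Iic hκ c).const_mul A

theorem T5_int2 (a b : ℝ) : Integrable ((Ioc a b).indicator (fun _ => (1:ℝ))) := by
  rw [integrable_indicator_iff measurableSet_Ioc]
  exact integrableOn_const (by simp) 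

theorem E_sub_H_integrable {A κ : ℝ} (hA : 0 < A) (hκ : 0 < κ) :
    Integrable (fun y => E A κ y - H y) := by
  rw [T5_E_sub_H_eq hA hκ]
  exact (T5_int1 hκ _).add ((T5_int2 _ _).sub (T5_int2 _ _))

theorem integral_E_sub_H {A κ : ℝ} (hA : 0 < A) (hκ : 0 < κ) :
    ∫ y, (E A κ y - H y) = (1 + Real.log A) / κ := by
  rw [T5_E_sub_H_eq hA hκ]
  have hsub : Integrable (fun y => (Ioc (-Real.log A / κ) 0).indicator (fun _ => (1:ℝ)) y
        - (Ioc 0 (-Real.log A / κ)).indicator (fun _ => (1:ℝ)) y) :=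
    (T5_int2 _ _).sub (T5_int2 _ _)
  rw [integral_add (T5_int1 hκ _) hsub,
    integral_sub (T5_int2 _ _) (T5_int2 _ _),
    integral_indicator measurableSet_Iic, integral_indicator measurableSet_Ioc,
    integral_indicator measurableSet_Ioc, integral_const_mul, integral_exp_mul_Iic hκ]
  have h1 : (∫ _y in Ioc (-Real.log A / κ) 0, (1:ℝ)) - ∫ _y in Ioc 0 (-Real.log A / κ), (1:ℝ)
      = ∫ _y in (-Real.log A / κ)..0, (1:ℝ) := rfl
  rw [h1, intervalIntegral.integral_const]
  have h2 : κ * (-Real.log A / κ) = -Real.log A := by field_simp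
  rw [h2, Real.exp_neg, Real.exp_log hA, smul_eq_mul, mul_one, zero_sub, mul_div_assoc',
    mul_inv_cancel₀ hA.ne', neg_div, neg_neg, add_div]

theorem T5_E_mono {A κ : ℝ} (hA : 0 ≤ A) (hκ : 0 ≤ κ) : Monotone (E A κ) := by
  intro x y hxy
  unfold E
  apply min_le_min le_rfl
  apply mul_le_mul_of_nonneg_left _ hA
  exact Real.exp_le_exp.mpr (mul_le_mul_of_nonneg_left hxy hκ)

theorem T5_log_E {A κ : ℝ} (hA : 0 < A) (y : ℝ) :
    Real.log (E A κ y) = min 0 (Real.log A + κ * y) := by
  unfold E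
  have hpos : 0 < A * Real.exp (κ * y) := by positivity
  have hlog : Real.log (A * Real.exp (κ * y)) = Real.log A + κ * y := by
    rw [Real.log_mul hA.ne' (Real.exp_pos _).ne', Real.log_exp]
  rcases le_total 1 (A * Real.exp (κ * y)) with h | h
  · rw [min_eq_left h, Real.log_one]
    have := Real.log_le_log one_pos h
    rw [Real.log_one, hlog] at this
    rw [min_eq_left this]
  · rw [min_eq_right h, hlog]
    have := Real.log_le_log hpos h
    rw [Real.log_one, hlog] at this
    rw [min_eq_right this]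

theorem LC_E {A κ : ℝ} (hA : 0 < A) (hκ : 0 < κ) : LC (E A κ) ((1 + Real.log A) / κ) where
  mono := T5_E_mono hA.le hκ.le
  pos := fun y => lt_min one_pos (by positivity)
  le_one := fun y => min_le_left _ _
  conc := by
    have h : (fun y => Real.log (E A κ y)) = (fun _ => (0:ℝ)) ⊓ (fun y => Real.log A + κ * y) := by
      funext y
      rw [T5_log_E hA]
      rfl
    rw [h]
    apply ConcaveOn.inf (concaveOn_const 0 convex_univ)
    refine ⟨convex_univ, ?_⟩
    intro x _ y _ a b _ _ hab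
    simp only [smul_eq_mul]
    have : a * (Real.log A + κ * x) + b * (Real.log A + κ * y)
        = (a + b) * Real.log A + κ * (a * x + b * y) := by ring
    rw [this, hab, one_mul]
  integrable := E_sub_H_integrable hA hκ
  mean := integral_E_sub_H hA hκ

theorem T5_E_meas (A κ : ℝ) : Measurable (E A κ) := by
  unfold E
  fun_prop

theorem T5_E_nonneg {A : ℝ} (hA : 0 ≤ A) (κ y : ℝ) : 0 ≤ E A κ y :=
  le_min zero_le_one (mul_nonneg hA (Real.exp_pos _).le)

theorem T5_E_le_one (A κ y : ℝ) : E A κ y ≤ 1 := min_le_left _ _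

theorem T5_bdd_integrable {φ : ℝ → ℝ} (hm : Measurable φ) (h0 : ∀ y, 0 ≤ φ y)
    (h1 : ∀ y, φ y ≤ 1) (b y : ℝ) :
    IntegrableOn (fun x => φ (y + b * x) * wE x) (Ioi 0) := by
  have hE : IntegrableOn (fun x : ℝ => Real.exp (-x)) (Ioi 0) := integrableOn_exp_neg_Ioi 0
  refine Integrable.mono' hE ?_ ?_
  · apply Measurable.aestronglyMeasurable
    unfold wE
    fun_prop
  · refine Filter.Eventually.of_forall (fun x => ?_)
    unfold wE
    rw [Real.norm_eq_abs, abs_of_nonneg (mul_nonneg (h0 _) (Real.exp_pos _).le)]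
    exact mul_le_of_le_one_left (Real.exp_pos _).le (h1 _)

theorem T_E_le {A κ b : ℝ} (hA : 0 ≤ A) (hκ : 0 ≤ κ) (hb : b ≤ 0) (y : ℝ) :
    T b (E A κ) y ≤ E (A / (1 - κ * b)) κ y := by
  have hint := T5_bdd_integrable (T5_E_meas A κ) (T5_E_nonneg hA κ) (T5_E_le_one A κ) b y
  have hneg : κ * b - 1 < 0 := by nlinarith
  unfold T K
  apply le_min
  · have hE : IntegrableOn (fun x : ℝ => Real.exp (-x)) (Ioi 0) := integrableOn_exp_neg_Ioi 0
    rw [← integral_exp_neg_Ioi_zero]
    apply setIntegral_mono_on hint hE measurableSet_Ioi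
    intro x _
    unfold wE
    exact mul_le_of_le_one_left (Real.exp_pos _).le (T5_E_le_one _ _ _)
  · have hE : IntegrableOn (fun x : ℝ => A * Real.exp (κ * y) * Real.exp ((κ * b - 1) * x)) (Ioi 0) :=
      (integrableOn_exp_mul_Ioi hneg 0).const_mul _
    have hval : ∫ x in Ioi (0:ℝ), A * Real.exp (κ * y) * Real.exp ((κ * b - 1) * x)
        = A / (1 - κ * b) * Real.exp (κ * y) := by
      rw [integral_const_mul, integral_exp_mul_Ioi hneg]
      have h1 : (1 - κ * b) ≠ 0 := by linarith
      have h2 : (κ * b - 1) ≠ 0 := by linarith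
      simp only [mul_zero, Real.exp_zero]
      field_simp
      ring
    rw [← hval]
    apply setIntegral_mono_on hint hE measurableSet_Ioi
    intro x _
    unfold wE E
    have h1 : min 1 (A * Real.exp (κ * (y + b * x))) ≤ A * Real.exp (κ * (y + b * x)) :=
      min_le_right _ _
    have h2 : A * Real.exp (κ * (y + b * x)) * Real.exp (-x)
        = A * Real.exp (κ * y) * Real.exp ((κ * b - 1) * x) := by
      rw [mul_assoc, mul_assoc, ← Real.exp_add, ← Real.exp_add]
      congr 2
      ring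
    rw [← h2]
    exact mul_le_mul_of_nonneg_right h1 (Real.exp_pos _).le

theorem T5_G_meas : Measurable G := by
  unfold G Crest.AlgGeometry.truncExpWeight
  apply Measurable.const_sub
  apply Measurable.ite measurableSet_Iic measurable_const
  fun_prop

/-- auxiliary profile `u ↦ G (2u) e^{-u}` -/
def T5_g (u : ℝ) : ℝ := G (2 * u) * Real.exp (-u)

theorem T5_g_nonneg (u : ℝ) : 0 ≤ T5_g u := mul_nonneg (T5_G_nonneg _) (Real.exp_pos _).le

theorem T5_g_of_nonpos {u : ℝ} (hu : u ≤ 0) : T5_g u = 0 := by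
  unfold T5_g
  rw [T5_G_of_nonpos (by linarith), zero_mul]

/-- antiderivative of `T5_g` on the positive half line -/
def T5_Phi (u : ℝ) : ℝ :=
  -Real.exp (-u) + 5 / 9 * Real.exp (-(3 * u)) + 2 / 3 * ((u ^ 1 * Real.exp (-u)) * Real.exp (-(2 * u)))

theorem T5_Phi_tendsto : Tendsto T5_Phi atTop (𝓝 0) := by
  have h1 : Tendsto (fun u : ℝ => Real.exp (-u)) atTop (𝓝 0) := Real.tendsto_exp_neg_atTop_nhds_zero
  have h3 : Tendsto (fun u : ℝ => Real.exp (-(3 * u))) atTop (𝓝 0) :=
    Real.tendsto_exp_neg_atTop_nhds_zero.comp (tendsto_id.const_mul_atTop (by norm_num : (0:ℝ) < 3))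
  have h2 : Tendsto (fun u : ℝ => Real.exp (-(2 * u))) atTop (𝓝 0) :=
    Real.tendsto_exp_neg_atTop_nhds_zero.comp (tendsto_id.const_mul_atTop (by norm_num : (0:ℝ) < 2))
  have h4 : Tendsto (fun u : ℝ => u ^ 1 * Real.exp (-u)) atTop (𝓝 0) :=
    Real.tendsto_pow_mul_exp_neg_atTop_nhds_zero 1
  have := (h1.neg.add (h3.const_mul (5 / 9))).add ((h4.mul h2).const_mul (2 / 3))
  have e : (-0 + 5 / 9 * 0 + 2 / 3 * (0 * 0) : ℝ) = 0 := by norm_num
  rw [e] at this
  exact this

theorem T5_Phi_deriv (u : ℝ) :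
    HasDerivAt T5_Phi ((1 - (1 + 2 * u) * Real.exp (-(2 * u))) * Real.exp (-u)) u := by
  have e1 : HasDerivAt (fun u : ℝ => Real.exp (-u)) (Real.exp (-u) * -1) u :=
    (hasDerivAt_id u).neg.exp
  have e3 : HasDerivAt (fun u : ℝ => Real.exp (-(3 * u))) (Real.exp (-(3 * u)) * -(3 * 1)) u :=
    ((hasDerivAt_id u).const_mul 3).neg.exp
  have e2 : HasDerivAt (fun u : ℝ => Real.exp (-(2 * u))) (Real.exp (-(2 * u)) * -(2 * 1)) u :=
    ((hasDerivAt_id u).const_mul 2).neg.exp
  have p1 : HasDerivAt (fun u : ℝ => u ^ 1) (1 : ℝ) u := by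
    have := hasDerivAt_pow 1 u
    simpa using this
  have h := (e1.neg.add (e3.const_mul (5 / 9))).add (((p1.mul e1).mul e2).const_mul (2 / 3))
  have e : (1 - (1 + 2 * u) * Real.exp (-(2 * u))) * Real.exp (-u) =
      -(Real.exp (-u) * -1) + 5 / 9 * (Real.exp (-(3 * u)) * -(3 * 1)) +
        2 / 3 * ((1 * Real.exp (-u) + u ^ 1 * (Real.exp (-u) * -1)) * Real.exp (-(2 * u)) +
          u ^ 1 * Real.exp (-u) * (Real.exp (-(2 * u)) * -(2 * 1))) := by
    have h3 : Real.exp (-(3 * u)) = Real.exp (-u) * Real.exp (-(2 * u)) := by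
      rw [← Real.exp_add]; congr 1; ring
    rw [h3]
    ring
  rw [e]
  exact h

theorem T5_g_eq {u : ℝ} (hu : 0 < u) :
    T5_g u = (1 - (1 + 2 * u) * Real.exp (-(2 * u))) * Real.exp (-u) := by
  unfold T5_g
  rw [T5_G_of_pos (by linarith)]

theorem T5_g_nonneg' : ∀ u ∈ Ioi (0:ℝ), 0 ≤ (1 - (1 + 2 * u) * Real.exp (-(2 * u))) * Real.exp (-u) := by
  intro u hu
  rw [← T5_g_eq hu]
  exact T5_g_nonneg u

theorem T5_g_integrableOn : IntegrableOn T5_g (Ioi 0) := by
  have := integrableOn_Ioi_deriv_of_nonneg' (a := 0) (fun x _ => T5_Phi_deriv x) T5_g_nonneg'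
    T5_Phi_tendsto
  exact this.congr_fun (fun u hu => (T5_g_eq hu).symm) measurableSet_Ioi

theorem T5_g_integral_Ioi : ∫ u in Ioi (0:ℝ), T5_g u = 4 / 9 := by
  have := integral_Ioi_of_hasDerivAt_of_nonneg' (a := 0) (fun x _ => T5_Phi_deriv x) T5_g_nonneg'
    T5_Phi_tendsto
  rw [setIntegral_congr_fun measurableSet_Ioi (fun u hu => T5_g_eq hu), this]
  simp [T5_Phi]
  norm_num

theorem T5_g_indicator : (Ioi (0:ℝ)).indicator T5_g = T5_g := by
  funext u
  by_cases hu : 0 < u
  · rw [indicator_of_mem (show u ∈ Ioi (0:ℝ) from hu)]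
  · rw [indicator_of_notMem (show u ∉ Ioi (0:ℝ) from hu), T5_g_of_nonpos (not_lt.mp hu)]

theorem T5_g_integrable : Integrable T5_g := by
  rw [← T5_g_indicator, integrable_indicator_iff measurableSet_Ioi]
  exact T5_g_integrableOn

theorem T5_g_integral : ∫ u, T5_g u = 4 / 9 := by
  rw [← T5_g_indicator, integral_indicator measurableSet_Ioi]
  exact T5_g_integral_Ioi

theorem T2G_le (y : ℝ) : T 2 G y ≤ E (4/9) (1/2) y := by
  have hint := T5_bdd_integrable T5_G_meas T5_G_nonneg T5_G_le_one 2 y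
  unfold T K
  apply le_min
  · have hE : IntegrableOn (fun x : ℝ => Real.exp (-x)) (Ioi 0) := integrableOn_exp_neg_Ioi 0
    rw [← integral_exp_neg_Ioi_zero]
    apply setIntegral_mono_on hint hE measurableSet_Ioi
    intro x _
    unfold wE
    exact mul_le_of_le_one_left (Real.exp_pos _).le (T5_G_le_one _)
  · have h1 : ∀ x, G (y + 2 * x) * wE x = Real.exp (1 / 2 * y) * T5_g (x + y / 2) := by
      intro x
      unfold wE T5_g
      have e1 : 2 * (x + y / 2) = y + 2 * x := by ring
      have e2 : Real.exp (-x) = Real.exp (1 / 2 * y) * Real.exp (-(x + y / 2)) := by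
        rw [← Real.exp_add]; congr 1; ring
      rw [e1, e2]
      ring
    simp_rw [h1]
    rw [integral_const_mul, mul_comm]
    apply mul_le_mul_of_nonneg_right _ (Real.exp_pos _).le
    have hsh : Integrable (fun x => T5_g (x + y / 2)) := T5_g_integrable.comp_add_right (y / 2)
    calc ∫ x in Ioi (0:ℝ), T5_g (x + y / 2) ≤ ∫ x, T5_g (x + y / 2) :=
          setIntegral_le_integral hsh (Filter.Eventually.of_forall (fun x => T5_g_nonneg _))
      _ = ∫ x, T5_g x := integral_add_right_eq_self T5_g (y / 2)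
      _ = 4 / 9 := T5_g_integral

end

end Crest.Agent.S0423
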