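import Crest.Agent.S0423_Defs

set_option autoImplicit false

namespace Crest.Agent.S0423

open MeasureTheory Set

noncomputable section

/-- three point inequality for concave functions -/
theorem tp {s : Set ℝ} {L : ℝ → ℝ} (hL : ConcaveOn ℝ s L) {x y z : ℝ} (hx : x ∈ s) (hz : z ∈ s)
    (hxy : x < y) (hyz : y < z) : (z - y) * L x + (y - x) * L z ≤ (z - x) * L y := by
  have h := hL.slope_anti_adjacent hx hz hxy hyz
  rw [div_le_div_iff₀ (by linarith) (by linarith)] at h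
  nlinarith

theorem chord_eq (L : ℝ → ℝ) {y1 y2 : ℝ} (h12 : y1 < y2) (y : ℝ) :
    L y1 + (L y2 - L y1) / (y2 - y1) * (y - y1) = ((y2 - y) * L y1 + (y - y1) * L y2) / (y2 - y1) := by
  have : y2 - y1 ≠ 0 := by linarith
  field_simp
  ring

theorem chord_le {s : Set ℝ} {L : ℝ → ℝ} (hL : ConcaveOn ℝ s L) {y1 y2 y : ℝ} (h1 : y1 ∈ s)
    (h2 : y2 ∈ s) (h12 : y1 < y2) (hy : y1 ≤ y) (hy' : y ≤ y2) :
    L y1 + (L y2 - L y1) / (y2 - y1) * (y - y1) ≤ L y := by
  rw [chord_eq L h12, div_le_iff₀ (by linarith)]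
  rcases hy.eq_or_lt with rfl | hy
  · nlinarith
  rcases hy'.eq_or_lt with rfl | hy'
  · nlinarith
  have := tp hL h1 h2 hy hy'
  nlinarith

theorem le_chord_right {s : Set ℝ} {L : ℝ → ℝ} (hL : ConcaveOn ℝ s L) {y1 y2 y : ℝ} (h1 : y1 ∈ s)
    (hys : y ∈ s) (h12 : y1 < y2) (hy : y2 ≤ y) :
    L y ≤ L y1 + (L y2 - L y1) / (y2 - y1) * (y - y1) := by
  rw [chord_eq L h12, le_div_iff₀ (by linarith)]
  rcases hy.eq_or_lt with rfl | hy
  · nlinarith
  have := tp hL h1 hys h12 hy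
  nlinarith

theorem le_chord_left {s : Set ℝ} {L : ℝ → ℝ} (hL : ConcaveOn ℝ s L) {y1 y2 y : ℝ} (h2 : y2 ∈ s)
    (hys : y ∈ s) (h12 : y1 < y2) (hy : y ≤ y1) :
    L y ≤ L y1 + (L y2 - L y1) / (y2 - y1) * (y - y1) := by
  rw [chord_eq L h12, le_div_iff₀ (by linarith)]
  rcases hy.eq_or_lt with rfl | hy
  · nlinarith
  have := tp hL hys h2 hy h12
  nlinarith

/-- supporting line at `0` of a concave function on the line -/
theorem exists_support {L : ℝ → ℝ} (hL : ConcaveOn ℝ univ L) :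
    ∃ k : ℝ, ∀ y, L y ≤ L 0 + k * y := by
  -- k = sup of right slopes
  let S : Set ℝ := (fun z : ℝ => (L z - L 0) / z) '' Ioi 0
  have hbdd : ∀ z, 0 < z → ∀ x, x < 0 → (L z - L 0) / z ≤ (L 0 - L x) / (0 - x) := by
    intro z hz x hx
    have := hL.slope_anti_adjacent (mem_univ x) (mem_univ z) hx hz
    simpa using this
  have hS : BddAbove S := by
    refine ⟨(L 0 - L (-1)) / (0 - (-1)), ?_⟩
    rintro _ ⟨z, hz, rfl⟩
    exact hbdd z hz (-1) (by norm_num)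
  have hne : S.Nonempty := ⟨_, ⟨1, by simp, rfl⟩⟩
  refine ⟨sSup S, fun y => ?_⟩
  rcases lt_trichotomy y 0 with hy | rfl | hy
  · have h1 : sSup S ≤ (L 0 - L y) / (0 - y) := by
      apply csSup_le hne
      rintro _ ⟨z, hz, rfl⟩
      exact hbdd z hz y hy
    rw [le_div_iff₀ (by linarith)] at h1
    nlinarith
  · simp
  · have h1 : (L y - L 0) / y ≤ sSup S := le_csSup hS ⟨y, hy, rfl⟩
    rw [div_le_iff₀ hy] at h1
    linarith

/-! ### level sets of the Gamma(2) density -/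

theorem conc_q : ConcaveOn ℝ (Ioi (0:ℝ)) (fun t => Real.log t - t) :=
  strictConcaveOn_log_Ioi.concaveOn.sub (convexOn_id (convex_Ioi 0))

/-- left end point of the level set -/
def ta (ρ : ℝ) : ℝ := ρ / (Real.exp ρ - 1)

theorem exp_sub_one_pos {ρ : ℝ} (hρ : 0 < ρ) : 0 < Real.exp ρ - 1 := by
  have := Real.add_one_lt_exp hρ.ne'
  linarith

theorem ta_pos {ρ : ℝ} (hρ : 0 < ρ) : 0 < ta ρ := div_pos hρ (exp_sub_one_pos hρ)

theorem ta_le_one {ρ : ℝ} (hρ : 0 < ρ) : ta ρ ≤ 1 := by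
  unfold ta
  rw [div_le_one (exp_sub_one_pos hρ)]
  have := Real.add_one_le_exp ρ
  linarith

theorem q_ta_eq {ρ : ℝ} (hρ : 0 < ρ) :
    Real.log (ta ρ + ρ) - (ta ρ + ρ) = Real.log (ta ρ) - ta ρ := by
  have h1 : ta ρ + ρ = ta ρ * Real.exp ρ := by
    unfold ta
    have := (exp_sub_one_pos hρ).ne'
    field_simp
    ring
  rw [h1, Real.log_mul (ta_pos hρ).ne' (Real.exp_pos ρ).ne', Real.log_exp, ← h1]
  ring

theorem wG_eq_exp {t : ℝ} (ht : 0 < t) : wG t = Real.exp (Real.log t - t) := by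
  unfold wG
  rw [sub_eq_add_neg, Real.exp_add, Real.exp_log ht]

theorem wG_ge {ρ t : ℝ} (hρ : 0 < ρ) (h1 : ta ρ ≤ t) (h2 : t ≤ ta ρ + ρ) : wG (ta ρ) ≤ wG t := by
  have hta := ta_pos hρ
  have ht : 0 < t := lt_of_lt_of_le hta h1
  rw [wG_eq_exp hta, wG_eq_exp ht]
  apply Real.exp_le_exp.2
  have := chord_le conc_q (y1 := ta ρ) (y2 := ta ρ + ρ) (y := t) hta (by simp; linarith) (by linarith) h1 h2
  simp only [q_ta_eq hρ] at this
  simpa using this

theorem wG_le {ρ t : ℝ} (hρ : 0 < ρ) (ht : 0 < t) (h : t ≤ ta ρ ∨ ta ρ + ρ ≤ t) :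
    wG t ≤ wG (ta ρ) := by
  have hta := ta_pos hρ
  rw [wG_eq_exp hta, wG_eq_exp ht]
  apply Real.exp_le_exp.2
  rcases h with h | h
  · have := le_chord_left conc_q (y1 := ta ρ) (y2 := ta ρ + ρ) (y := t) (by simp; linarith) ht (by linarith) h
    simp only [q_ta_eq hρ] at this
    simpa using this
  · have := le_chord_right conc_q (y1 := ta ρ) (y2 := ta ρ + ρ) (y := t) hta ht (by linarith) h
    simp only [q_ta_eq hρ] at this
    simpa using this

end

end Crest.Agent.S0423
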