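import Crest.Agent.S0423_P5
import Crest.Agent.S0423_P2
import Crest.Agent.S0423_P7a

set_option autoImplicit false

namespace Crest.Agent.S0423

open MeasureTheory Set

noncomputable section

variable {Ψ : ℝ → ℝ} {m : ℝ}

theorem LC.exp_log (h : LC Ψ m) (y : ℝ) : Real.exp (Real.log (Ψ y)) = Ψ y := Real.exp_log (h.pos y)

theorem LC.log_mono (h : LC Ψ m) : Monotone (fun y => Real.log (Ψ y)) :=
  fun _ _ hxy => Real.log_le_log (h.pos _) (h.mono hxy)

theorem LC.log_nonpos (h : LC Ψ m) (y : ℝ) : Real.log (Ψ y) ≤ 0 :=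
  Real.log_nonpos (h.pos y).le (h.le_one y)

/-- a flat piece forces the value `1`. -/
theorem LC.flat (h : LC Ψ m) {y1 y2 : ℝ} (h12 : y1 < y2)
    (heq : Real.log (Ψ y1) = Real.log (Ψ y2)) : Ψ y2 = 1 := by
  -- Ψ is constant on [y2, ∞)
  have hconst : ∀ y, y2 ≤ y → Ψ y = Ψ y2 := by
    intro y hy
    have h1 := le_chord_right h.conc (y1 := y1) (y2 := y2) (y := y) (mem_univ _) (mem_univ _) h12 hy
    simp only [heq, sub_self, zero_div, zero_mul, add_zero] at h1
    have h2 : Ψ y ≤ Ψ y2 := (Real.log_le_log_iff (h.pos _) (h.pos _)).1 h1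
    exact le_antisymm h2 (h.mono hy)
  have hint : IntegrableOn (fun y => Ψ y - H y) (Ioi (max y2 0)) := h.integrable.integrableOn
  have hint2 : IntegrableOn (fun _ : ℝ => Ψ y2 - 1) (Ioi (max y2 0)) := by
    refine hint.congr_fun (fun y hy => ?_) measurableSet_Ioi
    have hy' : max y2 0 < y := hy
    have h0 : 0 < y := lt_of_le_of_lt (le_max_right _ _) hy'
    have h2 : y2 ≤ y := (le_max_left _ _).trans hy'.le
    simp [H, h0, hconst y h2]
  rw [integrableOn_const_iff] at hint2
  rcases hint2 with h0 | h0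
  · rw [enorm_eq_zero] at h0
    linarith
  · simp at h0

/-- Grünbaum type inequality. -/
theorem LC.grunbaum (h : LC Ψ 0) : -1 ≤ Real.log (Ψ 0) := by
  obtain ⟨k, hk⟩ := exists_support h.conc
  have hk0 : 0 ≤ k := by
    have h1 := hk 1
    have h2 := h.log_mono (show (0:ℝ) ≤ 1 by norm_num)
    simp only at h2
    linarith
  rcases hk0.eq_or_lt with rfl | hkpos
  · have h1 := hk 1
    have h2 := h.log_mono (show (0:ℝ) ≤ 1 by norm_num)
    simp only at h2
    have h3 : Real.log (Ψ 0) = Real.log (Ψ 1) := by linarith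
    have h4 := h.flat (by norm_num) h3
    rw [h3, h4]; simp
  · have hA : 0 < Ψ 0 := h.pos 0
    have hle : ∀ y, Ψ y - H y ≤ E (Ψ 0) k y - H y := by
      intro y
      have : Ψ y ≤ E (Ψ 0) k y := by
        unfold E
        refine le_min (h.le_one y) ?_
        rw [← h.exp_log y, ← h.exp_log 0, ← Real.exp_add]
        exact Real.exp_le_exp.2 (hk y)
      linarith
    have h1 := integral_mono h.integrable (E_sub_H_integrable hA hkpos) hle
    rw [h.mean, integral_E_sub_H hA hkpos] at h1
    have h2 : 0 ≤ 1 + Real.log (Ψ 0) := by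
      by_contra hneg
      push Not at hneg
      have := div_neg_of_neg_of_pos hneg hkpos
      linarith
    linarith

/-- strict increase to the left of `0`. -/
theorem LC.strict (h : LC Ψ 0) : Real.log (Ψ (-1)) < Real.log (Ψ 0) := by
  have hle := h.log_mono (show (-1:ℝ) ≤ 0 by norm_num)
  simp only at hle
  rcases hle.eq_or_lt with heq | hlt
  · exfalso
    have h0 : Ψ 0 = 1 := h.flat (by norm_num) heq
    have hm1 : Ψ (-1) = 1 := by
      have := Real.log_injOn_pos (h.pos (-1)) (h.pos 0) heq
      rw [this, h0]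
    have hle : ∀ y, (Icc (-1:ℝ) 0).indicator (fun _ => (1:ℝ)) y ≤ Ψ y - H y := by
      intro y
      by_cases hy : y ∈ Icc (-1:ℝ) 0
      · rw [indicator_of_mem hy]
        have h1 : Ψ y = 1 := le_antisymm (h.le_one y) (hm1 ▸ h.mono hy.1)
        have h2 : H y = 0 := by simp [H, not_lt.2 hy.2]
        rw [h1, h2]; norm_num
      · rw [indicator_of_notMem hy]
        by_cases hy0 : 0 < y
        · have h1 : Ψ y = 1 := le_antisymm (h.le_one y) (h0 ▸ h.mono hy0.le)
          simp [H, hy0, h1]
        · simp [H, hy0, (h.pos y).le]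
    have hint : Integrable ((Icc (-1:ℝ) 0).indicator (fun _ => (1:ℝ))) :=
      (integrable_indicator_iff measurableSet_Icc).2 (by simp)
    have h1 := integral_mono hint h.integrable hle
    rw [h.mean, integral_indicator measurableSet_Icc] at h1
    simp at h1
    linarith
  · exact hlt

end

end Crest.Agent.S0423
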