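import Crest.Agent.S0423_P7b

set_option autoImplicit false

namespace Crest.Agent.S0423

open MeasureTheory Set

noncomputable section

variable {Ψ : ℝ → ℝ} {m : ℝ}

/-- the Gamma(2) density extended by zero -/
def gt : ℝ → ℝ := (Ioi (0:ℝ)).indicator wG

theorem Gam_eq (φ : ℝ → ℝ) (c : ℝ) : Gam φ c = ∫ t, φ (c - t) * gt t := by
  unfold Gam K gt
  rw [← integral_indicator measurableSet_Ioi]
  congr 1
  funext t
  by_cases ht : t ∈ Ioi (0:ℝ)
  · rw [indicator_of_mem ht, indicator_of_mem ht]
    congr 2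
    ring
  · rw [indicator_of_notMem ht, indicator_of_notMem ht, mul_zero]

theorem Gam_integrable {φ : ℝ → ℝ} (hφ : M01 φ) (c : ℝ) : Integrable (fun t => φ (c - t) * gt t) := by
  have h1 := K_integrable pw_wG hφ (-1) c
  rw [← integrable_indicator_iff measurableSet_Ioi] at h1
  refine h1.congr (Filter.Eventually.of_forall fun t => ?_)
  unfold gt
  by_cases ht : t ∈ Ioi (0:ℝ)
  · simp only [indicator_of_mem ht]
    congr 2
    ring
  · simp only [indicator_of_notMem ht, mul_zero]

theorem LC.compare (h : LC Ψ 0) (c : ℝ) {ρ κ A : ℝ} (hρ : 0 < ρ)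
    (hκdef : κ = (Real.log (Ψ (c - ta ρ)) - Real.log (Ψ (c - (ta ρ + ρ)))) / ρ) (hκ : 0 < κ)
    (hA : A = Real.exp (Real.log (Ψ (c - (ta ρ + ρ))) - κ * (c - (ta ρ + ρ)))) :
    Gam (E A κ) c - wG (ta ρ) * ((1 + Real.log A) / κ) ≤ Gam Ψ c := by
  have hApos : 0 < A := hA ▸ Real.exp_pos _
  have hE : M01 (E A κ) := m01_E hApos.le hκ.le
  set y1 := c - (ta ρ + ρ) with hy1
  set y2 := c - ta ρ with hy2
  have h12 : y1 < y2 := by rw [hy1, hy2]; linarith
  have hd : y2 - y1 = ρ := by rw [hy1, hy2]; ring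
  set μ := wG (ta ρ) with hμ
  have hμ0 : 0 ≤ μ := by
    rw [hμ]; unfold wG; exact mul_nonneg (ta_pos hρ).le (Real.exp_pos _).le
  -- the exponential of the chord
  have hline : ∀ y, A * Real.exp (κ * y)
      = Real.exp (Real.log (Ψ y1) + (Real.log (Ψ y2) - Real.log (Ψ y1)) / (y2 - y1) * (y - y1)) := by
    intro y
    rw [hA, ← Real.exp_add, hd, ← hκdef]
    congr 1
    ring
  have hin : ∀ y, y1 ≤ y → y ≤ y2 → E A κ y ≤ Ψ y := by
    intro y hy hy'
    unfold E
    refine (min_le_right _ _).trans ?_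
    rw [hline, ← h.exp_log y]
    exact Real.exp_le_exp.2 (chord_le h.conc (mem_univ _) (mem_univ _) h12 hy hy')
  have hout : ∀ y, (y ≤ y1 ∨ y2 ≤ y) → Ψ y ≤ E A κ y := by
    intro y hy
    unfold E
    refine le_min (h.le_one y) ?_
    rw [hline, ← h.exp_log y]
    apply Real.exp_le_exp.2
    rcases hy with hy | hy
    · exact le_chord_left h.conc (mem_univ _) (mem_univ _) h12 hy
    · exact le_chord_right h.conc (mem_univ _) (mem_univ _) h12 hy
  -- the difference
  have hf : Integrable (fun y => Ψ y - E A κ y) := by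
    refine (h.integrable.sub (E_sub_H_integrable hApos hκ)).congr
      (Filter.Eventually.of_forall fun y => ?_)
    simp
  have hfint : ∫ y, (Ψ y - E A κ y) = - ((1 + Real.log A) / κ) := by
    have : ∫ y, (Ψ y - E A κ y) = ∫ y, ((Ψ y - H y) - (E A κ y - H y)) := by
      congr 1; funext y; ring
    rw [this, integral_sub h.integrable (E_sub_H_integrable hApos hκ), h.mean,
      integral_E_sub_H hApos hκ]
    ring
  have hΔ : Integrable (fun t => Ψ (c - t) - E A κ (c - t)) := hf.comp_sub_left c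
  have hΔint : ∫ t, (Ψ (c - t) - E A κ (c - t)) = - ((1 + Real.log A) / κ) := by
    rw [← hfint]
    exact integral_sub_left_eq_self (fun y => Ψ y - E A κ y) volume c
  have hpt : ∀ t, μ * (Ψ (c - t) - E A κ (c - t)) ≤ Ψ (c - t) * gt t - E A κ (c - t) * gt t := by
    intro t
    have key : 0 ≤ (gt t - μ) * (Ψ (c - t) - E A κ (c - t)) := by
      by_cases ht : ta ρ ≤ t ∧ t ≤ ta ρ + ρ
      · have ht0 : 0 < t := lt_of_lt_of_le (ta_pos hρ) ht.1
        have h1 : μ ≤ gt t := by
          unfold gt
          rw [indicator_of_mem (show t ∈ Ioi (0:ℝ) from ht0)]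
          exact wG_ge hρ ht.1 ht.2
        have h2 : E A κ (c - t) ≤ Ψ (c - t) :=
          hin _ (by rw [hy1]; linarith [ht.2]) (by rw [hy2]; linarith [ht.1])
        exact mul_nonneg (by linarith) (by linarith)
      · have ht' : t ≤ ta ρ ∨ ta ρ + ρ ≤ t := by
          by_contra hcon
          push Not at hcon
          exact ht ⟨hcon.1.le, hcon.2.le⟩
        have h1 : gt t ≤ μ := by
          unfold gt
          by_cases ht0 : 0 < t
          · rw [indicator_of_mem (show t ∈ Ioi (0:ℝ) from ht0)]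
            exact wG_le hρ ht0 ht'
          · rw [indicator_of_notMem (show t ∉ Ioi (0:ℝ) from ht0)]
            exact hμ0
        have h2 : Ψ (c - t) ≤ E A κ (c - t) := by
          apply hout
          rcases ht' with ht' | ht'
          · right; rw [hy2]; linarith
          · left; rw [hy1]; linarith
        exact mul_nonneg_of_nonpos_of_nonpos (by linarith) (by linarith)
    nlinarith
  have h1 := integral_mono (hΔ.const_mul μ)
    ((Gam_integrable h.m01 c).sub (Gam_integrable hE c)) hpt
  rw [integral_const_mul, hΔint, integral_sub' (Gam_integrable h.m01 c) (Gam_integrable hE c),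
    ← Gam_eq, ← Gam_eq] at h1
  linarith

end

end Crest.Agent.S0423
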