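import Crest.Statements.S0453
import Crest.Agent.R299.Plug
import Crest.Agent.R299.ThreeRow
import Crest.Agent.R299.T4Global
import Crest.Agent.R299.PairI4
import Crest.Agent.R299.EnergySum

set_option autoImplicit false
open Finset
open Crest Crest.LogicCS

namespace Crest.Agent.S0453

/-- For every n ≥ 4 and every labeled degree vector on n vertices with a simple realization: the lazy switch chain (hold with probability 1/2, else take a uniform four-vertex set and a uniform ordered pair of distinct perfect matchings on it, swapping the first for the second when the first is present and the second absent) is, from every realization, within total variation 1/4 of uniform on the realizations after some t ≤ 2n^8 steps; and Var(f) ≤ 24 n² C(n,4) ⟨f, (I − P) f⟩ for the uniform law. -/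
theorem result (n : ℕ) (hn : 4 ≤ n)
    (d : Fin n → ℕ) (hd : (Crest.SwitchChain.realizations d).Nonempty) :
    (∃ t : ℕ, t ≤ 2 * n ^ 8 ∧ ∀ G ∈ Crest.SwitchChain.realizations d,
        Crest.SwitchChain.tvDist (fun G' => (Crest.SwitchChain.kernel n ^ t) G G')
          (Crest.SwitchChain.unifOn (Crest.SwitchChain.realizations d)) ≤ 1 / 4) ∧
      ∀ f : Finset (Crest.SwitchChain.Edge n) → ℝ,
        ((Crest.SwitchChain.realizations d).card : ℝ) *
              (∑ G ∈ Crest.SwitchChain.realizations d, f G ^ 2) -
            (∑ G ∈ Crest.SwitchChain.realizations d, f G) ^ 2 ≤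
          24 * (n : ℝ) ^ 2 * (n.choose 4 : ℝ) * (Crest.SwitchChain.realizations d).card *
            ∑ G ∈ Crest.SwitchChain.realizations d,
              f G * (f G - ∑ G' ∈ Crest.SwitchChain.realizations d,
                Crest.SwitchChain.kernel n G G' * f G') := by
  have hnR : (4 : ℝ) ≤ (n : ℝ) := by exact_mod_cast hn
  have hcore : Crest.Agent.R299.Core n :=
    Crest.Agent.R299.core_of_rest (fun ρ r F => Crest.Agent.R299.TR.three_row ρ r F)
      (fun d b hb f => Crest.Agent.R299.TG.I3 d b hb f)
      (fun d b hb f => Crest.Agent.R299.PF.I4 d b hb f)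
      (fun d f => by
        rw [Crest.Agent.R299.ES.I5 d f]
        have h0 := Crest.Agent.R299.Dir_nonneg' d f
        have h1 : (1 / 2 : ℝ) ≤ (n : ℝ) ^ 2 := by nlinarith [hnR]
        have h2 := mul_le_mul_of_nonneg_right h1 h0
        linarith [h2])
  exact Crest.Agent.R299.result_of_core hn hcore d hd

end Crest.Agent.S0453
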